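/-
The defect sets of a sphere isometry are uniform bushes: `W d` is the set of unit `x` with
`f x + f y + f z = 0` on the sphere and `‖x + y + z‖ = d`; every point of `W d` is a limit of convex
combinations of points of `W d` at distance exactly `d` from it.  Consequently, if every nonempty
subset of the unit sphere of `X` is dentable then `f` is additive on unit triples.
-/
import Vale.Agent.Lib.P084.UC.APlus
import Vale.Agent.Lib.P084.Inf.Dent

namespace Vale.Agent.Lib.P084.RNP

open Vale.Agent.Lib.P084.UC Vale.Agent.Lib.P084.Inf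
open Metric

variable {X Y : Type*} [NormedAddCommGroup X] [NormedSpace ℝ X] [NormedAddCommGroup Y]
  [NormedSpace ℝ Y]

/-- `W` is a `d`-bush: a nonempty subset of the unit sphere in which each point is in the closed
convex hull of the points of `W` at distance exactly `d` from it.  (For `d > 0`, such a set is not
dentable.) -/
def IsBush (W : Set X) (d : ℝ) : Prop :=
  W.Nonempty ∧ (∀ x ∈ W, ‖x‖ = 1) ∧ ∀ x ∈ W, x ∈ closure (convexHull ℝ {u ∈ W | ‖u - x‖ = d})

/-- Every nonempty subset of `S` is dentable. -/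
def SubsetsDentable (S : Set X) : Prop :=
  ∀ A : Set X, A ⊆ S → A.Nonempty → IsDentableSet A

theorem subsetsDentable_of_allBounded (h : AllBoundedDentable X) :
    SubsetsDentable (sphere (0 : X) 1) := by
  intro A hA hne
  refine h A hne ((isBounded_sphere (x := (0 : X)) (r := 1)).subset hA)

/-- A `d`-bush with `d > 0` is not dentable. -/
theorem IsBush.not_dentable {W : Set X} {d : ℝ} (h : IsBush W d) (hd : 0 < d) :
    ¬ IsDentableSet W := by
  intro hW
  obtain ⟨a, ha, hna⟩ := hW d hd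
  apply hna
  refine closure_mono (convexHull_mono ?_) (h.2.2 a ha)
  rintro u ⟨hu, hud⟩
  refine ⟨hu, ?_⟩
  simp only [mem_ball, dist_eq_norm, hud, lt_irrefl, not_false_eq_true]

/-- Every point of the defect set is in the closed convex hull of the points of the defect set at
distance exactly `d` from it. -/
theorem mem_closure_convexHull_defect_eq {f : X → Y} (hf : IsSphereIso f)
    (hodd : ∀ x : X, ‖x‖ = 1 → f (-x) = - f x) {d : ℝ} {x : X}
    (hx : x ∈ DefectSet f d) : x ∈ closure (convexHull ℝ {u ∈ DefectSet f d | ‖u - x‖ = d}) := by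
  classical
  obtain ⟨hx1, y₀, z₀, hy₀, hz₀, hfs₀, hd₀⟩ := hx
  have hfx := hf.norm_eq x hx1
  obtain ⟨g, hg⟩ := hf.exists_inv
  let σ : X → X := fun t => g (- f x - f t)
  let A : X → X := fun t => - x - σ t
  let E : X → Prop := fun t => ‖t‖ = 1 ∧ ‖t + x‖ = 1
  have hE_sum : ∀ t, E t → ‖- f x - f t‖ = 1 := by
    intro t ht
    have h1 := norm_f_add hf hodd hx1 ht.1
    have h2 : - f x - f t = -(f x + f t) := by abel
    rw [h2, norm_neg, h1, add_comm]; exact ht.2
  have hσ1 : ∀ t, E t → ‖σ t‖ = 1 := fun t ht => (hg _ (hE_sum t ht)).1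
  have hσf : ∀ t, E t → f (σ t) = - f x - f t := fun t ht => (hg _ (hE_sum t ht)).2
  have hxσ : ∀ t, E t → ‖x + σ t‖ = 1 := by
    intro t ht
    rw [← norm_f_add hf hodd hx1 (hσ1 t ht), hσf t ht]
    have : f x + (- f x - f t) = - f t := by abel
    rw [this, norm_neg]; exact hf.norm_eq t ht.1
  have hAE : ∀ t, E t → E (A t) := by
    intro t ht
    constructor
    · have : A t = -(x + σ t) := by simp only [A]; abel
      rw [this, norm_neg]; exact hxσ t ht
    · have : A t + x = - σ t := by simp only [A]; abel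
      rw [this, norm_neg]; exact hσ1 t ht
  have hAiso : ∀ t t', E t → E t' → ‖A t - A t'‖ = ‖t - t'‖ := by
    intro t t' ht ht'
    have h1 : A t - A t' = σ t' - σ t := by simp only [A]; abel
    rw [h1, ← hf.iso (σ t') (σ t) (hσ1 t' ht') (hσ1 t ht), hσf t ht, hσf t' ht', ←
      hf.iso t t' ht.1 ht'.1]
    congr 1
    abel
  have hy₀E : E y₀ := by
    refine ⟨hy₀, ?_⟩
    rw [add_comm, ← norm_f_add hf hodd hx1 hy₀]
    have : f x + f y₀ = - f z₀ := by
      have : f x + f y₀ = (f x + f y₀ + f z₀) - f z₀ := by abel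
      rw [this, hfs₀, zero_sub]
    rw [this, norm_neg]; exact hf.norm_eq z₀ hz₀
  have hσ₀ : σ y₀ = z₀ := by
    have h1 : f (σ y₀) = f z₀ := by
      rw [hσf y₀ hy₀E]
      have : f z₀ = (f x + f y₀ + f z₀) - f x - f y₀ := by abel
      rw [this, hfs₀]; abel
    have h2 := hf.iso (σ y₀) z₀ (hσ1 y₀ hy₀E) hz₀
    rw [h1, sub_self, norm_zero] at h2
    exact sub_eq_zero.1 (norm_eq_zero.1 h2.symm)
  let t : ℕ → X := fun n => A^[n] y₀
  have htE : ∀ n, E (t n) := by
    intro n
    induction n with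
    | zero => exact hy₀E
    | succ n ih =>
      have : t (n + 1) = A (t n) := Function.iterate_succ_apply' A n y₀
      rw [this]; exact hAE _ ih
  have htsucc : ∀ n, t (n + 1) = A (t n) := fun n => Function.iterate_succ_apply' A n y₀
  have hstep : ∀ n, ‖t n - t (n + 1)‖ = d := by
    intro n
    induction n with
    | zero =>
      rw [htsucc 0]
      have : t 0 = y₀ := rfl
      rw [this, ← hd₀]
      have h1 : y₀ - A y₀ = x + y₀ + z₀ := by
        simp only [A]; rw [hσ₀]; abel
      rw [h1]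
    | succ n ih =>
      rw [htsucc (n + 1), htsucc n, hAiso _ _ (htE n) (hAE _ (htE n)), ← htsucc n]
      exact ih
  let u : ℕ → X := fun n => x - (t n - t (n + 1))
  have hu_eq : ∀ n, u n = -(t n + σ (t n)) := by
    intro n
    simp only [u]
    rw [htsucc n]
    simp only [A]
    abel
  have hu_mem : ∀ n, u n ∈ {u ∈ DefectSet f d | ‖u - x‖ = d} := by
    intro n
    have hσn : f x + f (t n) + f (σ (t n)) = 0 := by
      rw [hσf _ (htE n)]; abel
    have hdn : ‖x + t n + σ (t n)‖ = d := by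
      rw [← hstep n, htsucc n]
      simp only [A]
      congr 1
      abel
    exact defect_mem hf hodd hx1 (htE n).1 (hσ1 _ (htE n)) hσn (hu_eq n) hdn
  rw [Metric.mem_closure_iff]
  intro ε hε
  obtain ⟨N, hN⟩ := exists_nat_gt (2 / ε)
  have hNpos : (0 : ℝ) < (N : ℝ) + 1 := by positivity
  let m : X := ((N : ℝ) + 1)⁻¹ • ∑ k ∈ Finset.range (N + 1), u k
  have hm_mem : m ∈ convexHull ℝ {u ∈ DefectSet f d | ‖u - x‖ = d} := by
    have hc := convex_convexHull ℝ {u ∈ DefectSet f d | ‖u - x‖ = d}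
    have : m = ∑ k ∈ Finset.range (N + 1), ((N : ℝ) + 1)⁻¹ • u k := by
      simp only [m]
      rw [Finset.smul_sum]
    rw [this]
    refine hc.sum_mem (fun _ _ => by positivity) ?_ (fun k _ => subset_convexHull ℝ _ (hu_mem k))
    rw [Finset.sum_const, Finset.card_range, nsmul_eq_mul]
    push_cast
    field_simp
  refine ⟨m, hm_mem, ?_⟩
  have htele : ∀ n : ℕ, ∑ k ∈ Finset.range n, u k = (n : ℝ) • x - (t 0 - t n) := by
    intro n
    induction n with
    | zero => simp
    | succ n ih =>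
      rw [Finset.sum_range_succ, ih]
      simp only [u]
      push_cast
      rw [add_smul, one_smul]
      abel
  have hm_eq : m = x - ((N : ℝ) + 1)⁻¹ • (t 0 - t (N + 1)) := by
    simp only [m]
    rw [htele (N + 1)]
    push_cast
    rw [smul_sub, smul_smul, inv_mul_cancel₀ hNpos.ne', one_smul]
  rw [dist_eq_norm, hm_eq]
  have h1 : x - (x - ((N : ℝ) + 1)⁻¹ • (t 0 - t (N + 1))) = ((N : ℝ) + 1)⁻¹ • (t 0 - t (N + 1)) := by
    abel
  rw [h1, norm_smul, norm_inv, Real.norm_of_nonneg hNpos.le]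
  have h2 : ‖t 0 - t (N + 1)‖ ≤ 2 := by
    have := norm_sub_le (t 0) (t (N + 1))
    rw [(htE 0).1, (htE (N + 1)).1] at this
    linarith
  have h3 : 2 < ε * ((N : ℝ) + 1) := by
    have h4 : 2 / ε < (N : ℝ) + 1 := by linarith
    rw [div_lt_iff₀ hε] at h4
    linarith
  calc ((N : ℝ) + 1)⁻¹ * ‖t 0 - t (N + 1)‖ ≤ ((N : ℝ) + 1)⁻¹ * 2 := by
        exact mul_le_mul_of_nonneg_left h2 (by positivity)
    _ < ε := by
        rw [inv_mul_lt_iff₀ hNpos]
        linarith

/-- The defect set, if nonempty, is a bush. -/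
theorem isBush_defect {f : X → Y} (hf : IsSphereIso f)
    (hodd : ∀ x : X, ‖x‖ = 1 → f (-x) = - f x) {d : ℝ} (hne : (DefectSet f d).Nonempty) :
    IsBush (DefectSet f d) d :=
  ⟨hne, fun _ hx => hx.1, fun _ hx => mem_closure_convexHull_defect_eq hf hodd hx⟩

/-- If `f` is not additive on unit triples, the defect set of `f` at the positive level
`d = ‖f a + f b - f (a + b)‖` is nonempty. -/
theorem defect_nonempty_of_not_additive {f : X → Y} (hf : IsSphereIso f)
    (hodd : ∀ x : X, ‖x‖ = 1 → f (-x) = - f x) {a b : X} (ha : ‖a‖ = 1) (hb : ‖b‖ = 1)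
    (hab : ‖a + b‖ = 1) : (DefectSet f ‖f a + f b - f (a + b)‖).Nonempty := by
  have h1 : ‖f a + f b‖ = 1 := by rw [norm_f_add hf hodd ha hb]; exact hab
  obtain ⟨c, hc, hfc⟩ := hf.surj (-(f a + f b)) (by rw [norm_neg]; exact h1)
  refine ⟨a, ha, b, c, hb, hc, by rw [hfc]; abel, ?_⟩
  -- `‖a + b + c‖ = ‖f (a + b) - f (- c)‖`
  have h2 := hf.iso (a + b) (-c) hab (by rw [norm_neg]; exact hc)
  rw [hodd c hc, hfc, neg_neg, sub_neg_eq_add] at h2
  rw [← h2, ← norm_neg]
  congr 1
  abel

/-- Additivity on unit triples if every subset of the unit sphere of the domain is dentable. -/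
theorem additive_of_subsetsDentable {f : X → Y} (hf : IsSphereIso f)
    (hodd : ∀ x : X, ‖x‖ = 1 → f (-x) = - f x) (hD : SubsetsDentable (sphere (0 : X) 1)) {a b : X}
    (ha : ‖a‖ = 1) (hb : ‖b‖ = 1) (hab : ‖a + b‖ = 1) : f (a + b) = f a + f b := by
  by_contra hne
  have hd : 0 < ‖f a + f b - f (a + b)‖ := by
    rw [norm_pos_iff]
    intro h0
    exact hne (sub_eq_zero.1 h0).symm
  have hB := isBush_defect hf hodd (defect_nonempty_of_not_additive hf hodd ha hb hab)
  exact hB.not_dentable hd (hD _ (fun x hx => by simpa using hB.2.1 x hx) hB.1)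

end Vale.Agent.Lib.P084.RNP
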