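/-
Slicing: from the finite-dimensional core theorem (no surjectivity, no affinity) to arbitrary rank.
If `f` is a surjective isometry of unit spheres, odd, additive on unit triples, and on each finite
dimensional subspace of dimension at least four the restriction of `f` to the sphere of that subspace
extends to a linear isometry, then `f` extends to a surjective linear isometry of `X` onto `Y`.
-/
import Vale.Agent.Lib.P084.UC.APlus
import Vale.Agent.Lib.P084.Inf.Dent
import Vale.Agent.Lib.P084.Inf.Cofacial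

namespace Vale.Agent.Lib.P084.RNP

open Vale.Agent.Lib.P084.UC
open Metric

variable {X Y : Type*} [NormedAddCommGroup X] [NormedSpace ℝ X]
  [NormedAddCommGroup Y] [NormedSpace ℝ Y]

/-- A finite dimensional subspace of dimension at least four containing given vectors. -/
lemma exists_sub4 (hrank : (4 : Cardinal) ≤ Module.rank ℝ X) (S : Finset X) :
    ∃ F : Submodule ℝ X, FiniteDimensional ℝ F ∧ 4 ≤ Module.finrank ℝ F ∧ ∀ v ∈ S, v ∈ F := by
  classical
  obtain ⟨s, hs, hli⟩ := exists_finset_linearIndependent_of_le_rank (R := ℝ) (M := X) (n := 4)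
    (by exact_mod_cast hrank)
  refine ⟨Submodule.span ℝ ((s ∪ S : Finset X) : Set X), inferInstance, ?_, ?_⟩
  · have h1 : Module.finrank ℝ (Submodule.span ℝ (s : Set X)) = 4 := by
      rw [finrank_span_finset_eq_card hli, hs]
    rw [← h1]
    apply Submodule.finrank_mono
    apply Submodule.span_mono
    intro v hv
    simp only [Finset.mem_coe, Finset.mem_union] at hv ⊢
    exact Or.inl hv
  · intro v hv
    apply Submodule.subset_span
    simp only [Finset.mem_coe, Finset.mem_union]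
    exact Or.inr hv

/-- The local-to-global step: a surjective sphere isometry whose restrictions to the spheres of the
finite dimensional subspaces of dimension at least four extend to linear isometries is the
restriction of a surjective linear isometry. -/
theorem linear_of_core (hrank : (4 : Cardinal) ≤ Module.rank ℝ X) {f : X → Y}
    (hf : IsSphereIso f)
    (hcore : ∀ F : Submodule ℝ X, FiniteDimensional ℝ F → 4 ≤ Module.finrank ℝ F →
      ∃ L : F →L[ℝ] Y, (∀ x, ‖L x‖ = ‖x‖) ∧ ∀ x : F, ‖(x : X)‖ = 1 → L x = f x) :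
    ∃ T : X ≃ₗᵢ[ℝ] Y, ∀ x, ‖x‖ = 1 → T x = f x := by
  classical
  -- the radial extension
  set R : X → Y := fun a => ‖a‖ • f (‖a‖⁻¹ • a) with hR
  have hRsub : ∀ F : Submodule ℝ X, FiniteDimensional ℝ F → 4 ≤ Module.finrank ℝ F →
      ∃ L : F →L[ℝ] Y, ∀ x : F, L x = R x := by
    intro F hFd hF4
    obtain ⟨L, -, hL1⟩ := hcore F hFd hF4
    refine ⟨L, fun x => ?_⟩
    by_cases hx : x = 0
    · subst hx
      simp [hR]
    · have hn : ‖x‖ ≠ 0 := norm_ne_zero_iff.2 hx
      have hu : ‖‖(x : X)‖⁻¹ • (x : X)‖ = 1 := by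
        rw [norm_smul, norm_inv, norm_norm]
        exact inv_mul_cancel₀ hn
      have h1 := hL1 (‖x‖⁻¹ • x) hu
      have h2 : L x = ‖x‖ • L (‖x‖⁻¹ • x) := by
        rw [map_smul, smul_smul, mul_inv_cancel₀ hn, one_smul]
      rw [h2, h1]
      rfl
  have hRnorm : ∀ x, ‖R x‖ = ‖x‖ := by
    intro x
    by_cases hx : x = 0
    · subst hx
      simp [hR]
    · have hn : ‖x‖ ≠ 0 := norm_ne_zero_iff.2 hx
      have hu : ‖‖x‖⁻¹ • x‖ = 1 := by
        rw [norm_smul, norm_inv, norm_norm, inv_mul_cancel₀ hn]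
      simp only [hR]
      rw [norm_smul, hf.norm_eq _ hu, norm_norm, mul_one]
  have hRadd : ∀ x x', R (x + x') = R x + R x' := by
    intro x x'
    obtain ⟨F, hFd, hF4, hFS⟩ := exists_sub4 hrank {x, x'}
    have hxF : x ∈ F := hFS x (by simp)
    have hx'F : x' ∈ F := hFS x' (by simp)
    obtain ⟨L, hL⟩ := hRsub F hFd hF4
    have h1 := hL ⟨x, hxF⟩
    have h2 := hL ⟨x', hx'F⟩
    have h3 := hL (⟨x, hxF⟩ + ⟨x', hx'F⟩)
    rw [map_add, h1, h2] at h3
    exact h3.symm
  set Rh : X →+ Y := AddMonoidHom.mk' R hRadd with hRh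
  have hiso : Isometry Rh := AddMonoidHomClass.isometry_of_norm _ hRnorm
  set L : X →L[ℝ] Y := Rh.toRealLinearMap hiso.continuous with hL
  have hLapp : ∀ x, L x = R x := fun x => rfl
  have hLs : ∀ x, ‖x‖ = 1 → L x = f x := by
    intro x hx
    rw [hLapp]
    simp only [hR, hx, inv_one, one_smul]
  have hsurj : Function.Surjective L := by
    intro y
    by_cases hy : y = 0
    · exact ⟨0, by rw [hy, map_zero]⟩
    · have hn : 0 < ‖y‖ := norm_pos_iff.2 hy
      have h1 : ‖‖y‖⁻¹ • y‖ = 1 := by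
        simpa using norm_smul_inv_norm (𝕜 := ℝ) hy
      obtain ⟨a, ha, hga⟩ := hf.surj _ h1
      refine ⟨‖y‖ • a, ?_⟩
      rw [map_smul, hLs a ha, hga, smul_smul, mul_inv_cancel₀ hn.ne', one_smul]
  let Li : X →ₗᵢ[ℝ] Y := ⟨L.toLinearMap, fun x => hRnorm x⟩
  refine ⟨LinearIsometryEquiv.ofSurjective Li hsurj, fun x hx => ?_⟩
  show L x = f x
  rw [hLs x hx]

/-- The hypotheses of the core theorem hold on every subspace. -/
theorem core_hyp_of_subspace {f : X → Y} (hf : IsSphereIso f)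
    (hodd : ∀ a : X, ‖a‖ = 1 → f (-a) = -f a)
    (hadd : ∀ x z : X, ‖x‖ = 1 → ‖z‖ = 1 → ‖x + z‖ = 1 → f (x + z) = f x + f z)
    (F : Submodule ℝ X) :
    (∀ a : F, ‖a‖ = 1 → ‖f (a : X)‖ = 1) ∧
    (∀ a b : F, ‖a‖ = 1 → ‖b‖ = 1 → ‖f (a : X) - f (b : X)‖ = ‖a - b‖) ∧
    (∀ a : F, ‖a‖ = 1 → f ((-a : F) : X) = - f (a : X)) ∧
    (∀ x z : F, ‖x‖ = 1 → ‖z‖ = 1 → ‖x + z‖ = 1 → f ((x + z : F) : X) = f (x : X) + f (z : X)) := by
  refine ⟨fun a ha => hf.norm_eq _ ha, fun a b ha hb => hf.iso _ _ ha hb,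
    fun a ha => hodd _ ha, fun x z hx hz hxz => hadd _ _ hx hz hxz⟩

end Vale.Agent.Lib.P084.RNP
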