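import Vale.Agent.Lib.P084.Dim4.Core

/-! Borsuk-Ulam on `Ew w` itself, for every norm, with no quotient sphere and no fibres: a continuous
map from `Ew w` to the plane which is odd for `x ↦ w - x` has a zero, when the dimension is at
least four and `0 < ‖w‖ < 2`. The map is pulled back to a sphere of the quotient along a continuous
odd selection of the points of the lens maximising a linear functional, obtained by a small strictly
concave perturbation. -/

set_option linter.unusedSectionVars false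

namespace Vale.Agent.Lib.P084.RNP

open Metric Set Filter Topology
open Vale.Agent.Lib.P084.Dim4

variable {X : Type*} [NormedAddCommGroup X] [NormedSpace ℝ X]

/-- In the open lens a nonzero functional is not maximal. -/
lemma exists_gt_of_open {w : X} {φ : X →L[ℝ] ℝ} (hφ : φ ≠ 0) {u : X} (h1 : ‖u‖ < 1)
    (h2 : ‖u - w‖ < 1) : ∃ z ∈ Lens w, φ u < φ z := by
  obtain ⟨e, he⟩ : ∃ e, φ e ≠ 0 := by
    by_contra hcon
    push_neg at hcon
    exact hφ (ContinuousLinearMap.ext hcon)
  set e' : X := (φ e)⁻¹ • e with he'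
  have hφe : φ e' = 1 := by
    rw [he', map_smul, smul_eq_mul, inv_mul_cancel₀ he]
  set d : ℝ := min (1 - ‖u‖) (1 - ‖u - w‖) with hd
  have hd0 : 0 < d := lt_min (by linarith) (by linarith)
  set ε : ℝ := d / (‖e'‖ + 1) with hε
  have hn : 0 < ‖e'‖ + 1 := by positivity
  have hε0 : 0 < ε := div_pos hd0 hn
  have hεe : ε * ‖e'‖ ≤ d := by
    rw [hε, div_mul_eq_mul_div, div_le_iff₀ hn]
    nlinarith [norm_nonneg e']
  have h3 : d ≤ 1 - ‖u‖ := min_le_left _ _
  have h4 : d ≤ 1 - ‖u - w‖ := min_le_right _ _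
  refine ⟨u + ε • e', ⟨?_, ?_⟩, ?_⟩
  · calc ‖u + ε • e'‖ ≤ ‖u‖ + ‖ε • e'‖ := norm_add_le _ _
      _ = ‖u‖ + ε * ‖e'‖ := by rw [norm_smul, Real.norm_of_nonneg hε0.le]
      _ ≤ 1 := by linarith
  · have e1 : u + ε • e' - w = (u - w) + ε • e' := by abel
    rw [e1]
    calc ‖(u - w) + ε • e'‖ ≤ ‖u - w‖ + ‖ε • e'‖ := norm_add_le _ _
      _ = ‖u - w‖ + ε * ‖e'‖ := by rw [norm_smul, Real.norm_of_nonneg hε0.le]
      _ ≤ 1 := by linarith
  · rw [map_add, map_smul, smul_eq_mul, hφe]
    linarith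

/-- A small positive `t` with `a + t * b < 1`, `t ≤ 1/2`, when `a < 1` and `0 ≤ b`. -/
lemma exists_small_t {a b : ℝ} (ha : a < 1) (hb : 0 ≤ b) :
    ∃ t : ℝ, 0 < t ∧ t ≤ 1 / 2 ∧ a + t * b < 1 := by
  have hn : 0 < b + 1 := by linarith
  have h1 : 0 < (1 - a) / (2 * (b + 1)) := div_pos (by linarith) (by positivity)
  refine ⟨min (1 / 2) ((1 - a) / (2 * (b + 1))), lt_min (by norm_num) h1, min_le_left _ _, ?_⟩
  have h2 : min (1 / 2) ((1 - a) / (2 * (b + 1))) ≤ (1 - a) / (2 * (b + 1)) := min_le_right _ _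
  have h3 : (1 - a) / (2 * (b + 1)) * b < 1 - a := by
    rw [div_mul_eq_mul_div, div_lt_iff₀ (by positivity)]
    nlinarith
  have h4 := mul_le_mul_of_nonneg_right h2 hb
  linarith

/-- A maximiser on the lens of a nonzero functional vanishing on `w` lies on `Ew w`, for every
norm. -/
lemma max_mem_Ew_ns {w : X} {φ : X →L[ℝ] ℝ} (hφ0 : φ w = 0) (hφ : φ ≠ 0) {x : X}
    (hx : x ∈ Lens w) (hmax : ∀ z ∈ Lens w, φ z ≤ φ x) : x ∈ Ew w := by
  have hopen : ¬ ∃ u : X, ‖u‖ < 1 ∧ ‖u - w‖ < 1 ∧ φ u = φ x := by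
    rintro ⟨u, h1, h2, h3⟩
    obtain ⟨z, hz, hlt⟩ := exists_gt_of_open hφ h1 h2
    have := hmax z hz
    linarith
  by_contra hnot
  have hx1 : ‖x‖ ≤ 1 := hx.1
  have hx2 : ‖x - w‖ ≤ 1 := hx.2
  have hcases : ‖x‖ < 1 ∨ ‖x - w‖ < 1 := by
    by_contra hc
    push_neg at hc
    exact hnot ⟨le_antisymm hx1 hc.1, le_antisymm hx2 hc.2⟩
  apply hopen
  rcases hcases with h | h
  · obtain ⟨t, ht0, ht1, ht2⟩ := exists_small_t h (norm_nonneg w)
    refine ⟨x + t • w, ?_, ?_, ?_⟩
    · calc ‖x + t • w‖ ≤ ‖x‖ + ‖t • w‖ := norm_add_le _ _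
        _ = ‖x‖ + t * ‖w‖ := by rw [norm_smul, Real.norm_of_nonneg ht0.le]
        _ < 1 := ht2
    · have e : x + t • w - w = (1 - t) • (x - w) + t • x := by module
      rw [e]
      have h5 : 0 ≤ 1 - t := by linarith
      calc ‖(1 - t) • (x - w) + t • x‖ ≤ ‖(1 - t) • (x - w)‖ + ‖t • x‖ := norm_add_le _ _
        _ = (1 - t) * ‖x - w‖ + t * ‖x‖ := by
            rw [norm_smul, norm_smul, Real.norm_of_nonneg h5, Real.norm_of_nonneg ht0.le]
        _ < 1 := by
            have h6 := mul_le_mul_of_nonneg_left hx2 h5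
            have h7 := mul_lt_mul_of_pos_left h ht0
            linarith
    · rw [map_add, map_smul, hφ0, smul_zero, add_zero]
  · obtain ⟨t, ht0, ht1, ht2⟩ := exists_small_t h (norm_nonneg w)
    refine ⟨x - t • w, ?_, ?_, ?_⟩
    · have e : x - t • w = (1 - t) • x + t • (x - w) := by module
      rw [e]
      have h5 : 0 ≤ 1 - t := by linarith
      calc ‖(1 - t) • x + t • (x - w)‖ ≤ ‖(1 - t) • x‖ + ‖t • (x - w)‖ := norm_add_le _ _
        _ = (1 - t) * ‖x‖ + t * ‖x - w‖ := by
            rw [norm_smul, norm_smul, Real.norm_of_nonneg h5, Real.norm_of_nonneg ht0.le]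
        _ < 1 := by
            have h6 := mul_le_mul_of_nonneg_left hx1 h5
            have h7 := mul_lt_mul_of_pos_left h ht0
            linarith
    · have e : x - t • w - w = (x - w) - t • w := by abel
      rw [e]
      calc ‖(x - w) - t • w‖ ≤ ‖x - w‖ + ‖t • w‖ := norm_sub_le _ _
        _ = ‖x - w‖ + t * ‖w‖ := by rw [norm_smul, Real.norm_of_nonneg ht0.le]
        _ < 1 := ht2
    · rw [map_sub, map_smul, hφ0, smul_zero, sub_zero]

lemma Lens_mid {w x y : X} (hx : x ∈ Lens w) (hy : y ∈ Lens w) :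
    (1 / 2 : ℝ) • x + (1 / 2 : ℝ) • y ∈ Lens w := by
  constructor
  · calc ‖(1 / 2 : ℝ) • x + (1 / 2 : ℝ) • y‖ ≤ ‖(1 / 2 : ℝ) • x‖ + ‖(1 / 2 : ℝ) • y‖ := norm_add_le _ _
      _ = (1 / 2) * ‖x‖ + (1 / 2) * ‖y‖ := by
          rw [norm_smul, norm_smul]; norm_num
      _ ≤ 1 := by
          have := hx.1
          have := hy.1
          linarith
  · have e : (1 / 2 : ℝ) • x + (1 / 2 : ℝ) • y - w = (1 / 2 : ℝ) • (x - w) + (1 / 2 : ℝ) • (y - w) := by
      module
    rw [e]
    calc ‖(1 / 2 : ℝ) • (x - w) + (1 / 2 : ℝ) • (y - w)‖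
        ≤ ‖(1 / 2 : ℝ) • (x - w)‖ + ‖(1 / 2 : ℝ) • (y - w)‖ := norm_add_le _ _
      _ = (1 / 2) * ‖x - w‖ + (1 / 2) * ‖y - w‖ := by
          rw [norm_smul, norm_smul]; norm_num
      _ ≤ 1 := by
          have := hx.2
          have := hy.2
          linarith

lemma Lens_symm {w x : X} (hx : x ∈ Lens w) : w - x ∈ Lens w := by
  constructor
  · rw [norm_sub_rev]; exact hx.2
  · have : w - x - w = -x := by abel
    rw [this, norm_neg]; exact hx.1

lemma half_mem_Lens' {w : X} (hw2 : ‖w‖ < 2) : (1 / 2 : ℝ) • w ∈ Lens w := by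
  have h1 : ‖(1 / 2 : ℝ) • w‖ ≤ 1 := by
    rw [norm_smul]; norm_num; linarith
  refine ⟨h1, ?_⟩
  have : (1 / 2 : ℝ) • w - w = -((1 / 2 : ℝ) • w) := by module
  rw [this, norm_neg]
  exact h1

section Main

variable {E' : Type*} [NormedAddCommGroup E'] [InnerProductSpace ℝ E']
variable [FiniteDimensional ℝ X] [FiniteDimensional ℝ E']

/-- The quadratic form centred at `w / 2`. -/
noncomputable def qf (w x : X) : ℝ := ‖toEuclidean (x - (1 / 2 : ℝ) • w)‖ ^ 2

/-- The perturbed functional. -/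
noncomputable def J (π : X →L[ℝ] E') (w : X) (δ : ℝ) (v : E') (x : X) : ℝ :=
  inner ℝ v (π x) - δ * qf w x

lemma continuous_qf (w : X) : Continuous (qf w) := by
  unfold qf
  exact ((toEuclidean (E := X)).continuous.comp (continuous_id.sub continuous_const)).norm.pow 2

lemma qf_symm (w x : X) : qf w (w - x) = qf w x := by
  unfold qf
  have e : w - x - (1 / 2 : ℝ) • w = -(x - (1 / 2 : ℝ) • w) := by module
  rw [e, map_neg, norm_neg]

lemma qf_mid (w x y : X) :
    qf w ((1 / 2 : ℝ) • x + (1 / 2 : ℝ) • y) =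
      (qf w x + qf w y) / 2 - ‖toEuclidean (x - y)‖ ^ 2 / 4 := by
  unfold qf
  set a := toEuclidean (x - (1 / 2 : ℝ) • w) with ha
  set b := toEuclidean (y - (1 / 2 : ℝ) • w) with hb
  have e1 : toEuclidean ((1 / 2 : ℝ) • x + (1 / 2 : ℝ) • y - (1 / 2 : ℝ) • w) =
      (1 / 2 : ℝ) • (a + b) := by
    rw [ha, hb, ← map_add, ← map_smul]
    congr 1
    module
  have e2 : toEuclidean (x - y) = a - b := by
    rw [ha, hb, ← map_sub]
    congr 1
    abel
  rw [e1, e2, norm_smul]
  have hp := parallelogram_law_with_norm ℝ a b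
  norm_num
  nlinarith [hp]

lemma qf_eq_zero_iff {x y : X} (h : ‖toEuclidean (x - y)‖ ^ 2 ≤ 0) : x = y := by
  have h1 : ‖toEuclidean (x - y)‖ = 0 := by
    have := norm_nonneg (toEuclidean (x - y))
    nlinarith
  have h2 : toEuclidean (x - y) = 0 := norm_eq_zero.1 h1
  have h3 : x - y = 0 := (map_eq_zero_iff _ (toEuclidean (E := X)).injective).1 h2
  exact sub_eq_zero.1 h3

/-- Uniqueness of the maximiser of the perturbed functional. -/
lemma J_unique {π : X →L[ℝ] E'} {w : X} {δ : ℝ} (hδ : 0 < δ) {v : E'} {x y : X}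
    (hx : x ∈ Lens w) (hy : y ∈ Lens w) (hmx : ∀ z ∈ Lens w, J π w δ v z ≤ J π w δ v x)
    (hmy : ∀ z ∈ Lens w, J π w δ v z ≤ J π w δ v y) : x = y := by
  have hm := Lens_mid hx hy
  have h1 := hmx _ hm
  have h2 := hmy _ hm
  have e : J π w δ v ((1 / 2 : ℝ) • x + (1 / 2 : ℝ) • y) =
      (J π w δ v x + J π w δ v y) / 2 + δ * (‖toEuclidean (x - y)‖ ^ 2 / 4) := by
    unfold J
    rw [qf_mid, map_add, map_smul, map_smul, inner_add_right, real_inner_smul_right,
      real_inner_smul_right]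
    ring
  rw [e] at h1 h2
  apply qf_eq_zero_iff
  have h3 : δ * (‖toEuclidean (x - y)‖ ^ 2 / 4) ≤ 0 := by linarith
  by_contra hcon
  have h4 : 0 < ‖toEuclidean (x - y)‖ ^ 2 := not_le.1 hcon
  have h5 : 0 < δ * (‖toEuclidean (x - y)‖ ^ 2 / 4) := by positivity
  linarith

lemma continuous_J_of {A : Type*} [TopologicalSpace A] {π : X →L[ℝ] E'} {w : X} {δ : A → ℝ}
    {v : A → E'} {x : A → X} (hδ : Continuous δ) (hv : Continuous v) (hx : Continuous x) :
    Continuous fun a => J π w (δ a) (v a) (x a) := by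
  unfold J
  exact (hv.inner (π.continuous.comp hx)).sub (hδ.mul ((continuous_qf w).comp hx))

lemma exists_max_J {π : X →L[ℝ] E'} {w : X} (hw2 : ‖w‖ < 2) (δ : ℝ) (v : E') :
    ∃ x ∈ Lens w, ∀ z ∈ Lens w, J π w δ v z ≤ J π w δ v x := by
  obtain ⟨x, hx, hmax⟩ := (isCompact_Lens w).exists_isMaxOn ⟨_, half_mem_Lens' hw2⟩
    (continuous_J_of (π := π) (w := w) continuous_const continuous_const continuous_id).continuousOn
  exact ⟨x, hx, fun z hz => hmax hz⟩

lemma J_symm {π : X →L[ℝ] E'} {w : X} (hπw : π w = 0) (δ : ℝ) (v : E') (x : X) :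
    J π w δ (-v) (w - x) = J π w δ v x := by
  unfold J
  rw [qf_symm, map_sub, hπw, zero_sub, inner_neg_left, inner_neg_right, neg_neg]

/-- The core: a projection along `w` onto a space of dimension at least three. -/
theorem no_odd_of_proj {w : X} (hw2 : ‖w‖ < 2) {π : X →L[ℝ] E'} (hπw : π w = 0)
    (hsurj : Function.Surjective π) (hdim3 : 3 ≤ Module.finrank ℝ E') (Ξ : Ew w → ℂ)
    (hc : Continuous Ξ) (h0 : ∀ t, Ξ t ≠ 0) (hodd : ∀ t, Ξ (rho w t) = -Ξ t) : False := by
  classical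
  -- extension to the whole space, odd for `x ↦ w - x`
  obtain ⟨G₀, hG₀⟩ := ContinuousMap.exists_restrict_eq (isClosed_Ew w) (⟨Ξ, hc⟩ : C(Ew w, ℂ))
  have hG₀Ξ : ∀ z : Ew w, G₀ (z : X) = Ξ z := fun z => DFunLike.congr_fun hG₀ z
  set G : X → ℂ := fun x => (1 / 2 : ℂ) * (G₀ x - G₀ (w - x)) with hG
  have hGc : Continuous G := by
    simp only [hG]
    exact continuous_const.mul
      (G₀.continuous.sub (G₀.continuous.comp (continuous_const.sub continuous_id)))
  have hGodd : ∀ x, G (w - x) = -G x := by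
    intro x
    simp only [hG, sub_sub_cancel]
    ring
  have hGΞ : ∀ z : Ew w, G (z : X) = Ξ z := by
    intro z
    have e : G₀ (w - (z : X)) = G₀ ((rho w z : Ew w) : X) := rfl
    simp only [hG]
    rw [e, hG₀Ξ, hG₀Ξ, hodd]
    ring
  have hGne : ∀ z ∈ Ew w, G z ≠ 0 := by
    intro z hz
    have := hGΞ ⟨z, hz⟩
    simp only at this
    rw [this]
    exact h0 _
  -- compactness
  have : ProperSpace E' := FiniteDimensional.proper_real E'
  have hCL : CompactSpace (Lens w) := isCompact_iff_compactSpace.1 (isCompact_Lens w)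
  have hCS : CompactSpace (sphere (0 : E') 1) :=
    isCompact_iff_compactSpace.1 (isCompact_sphere (0 : E') 1)
  -- the bad parameters form a closed set, not containing `0`
  set C : Set (ℝ × (sphere (0 : E') 1 × Lens w)) :=
    {p | (∀ z : Lens w, J π w p.1 (p.2.1 : E') (z : X) ≤ J π w p.1 (p.2.1 : E') (p.2.2 : X)) ∧
      G (p.2.2 : X) = 0} with hC
  have hCclosed : IsClosed C := by
    have e : C = (⋂ z : Lens w, {p : ℝ × (sphere (0 : E') 1 × Lens w) |
        J π w p.1 (p.2.1 : E') (z : X) ≤ J π w p.1 (p.2.1 : E') (p.2.2 : X)}) ∩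
        {p | G (p.2.2 : X) = 0} := by
      ext p
      simp [hC]
    rw [e]
    refine (isClosed_iInter fun z => isClosed_le ?_ ?_).inter (isClosed_eq ?_ continuous_const)
    · exact continuous_J_of continuous_fst
        (continuous_subtype_val.comp (continuous_fst.comp continuous_snd)) continuous_const
    · exact continuous_J_of continuous_fst
        (continuous_subtype_val.comp (continuous_fst.comp continuous_snd))
        (continuous_subtype_val.comp (continuous_snd.comp continuous_snd))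
    · exact hGc.comp (continuous_subtype_val.comp (continuous_snd.comp continuous_snd))
  have hPclosed : IsClosed (Prod.fst '' C) := isClosedMap_fst_of_compactSpace _ hCclosed
  have h0P : (0 : ℝ) ∈ (Prod.fst '' C)ᶜ := by
    rintro ⟨⟨δ, v, x⟩, ⟨hm, hz⟩, hδ⟩
    simp only at hδ hm hz
    subst hδ
    have hv1 : ‖(v : E')‖ = 1 := by simpa using v.2
    set φ : X →L[ℝ] ℝ := (innerSL ℝ (v : E')).comp π with hφ
    have hφa : ∀ a, φ a = inner ℝ (v : E') (π a) := fun a => rfl
    have hφ0 : φ w = 0 := by rw [hφa, hπw, inner_zero_right]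
    have hφne : φ ≠ 0 := by
      intro h
      obtain ⟨e, he⟩ := hsurj (v : E')
      have h1 : φ e = 0 := by rw [h]; rfl
      rw [hφa, he, real_inner_self_eq_norm_sq, hv1] at h1
      norm_num at h1
    have hmem : (x : X) ∈ Ew w := by
      apply max_mem_Ew_ns hφ0 hφne x.2
      intro z hz'
      have := hm ⟨z, hz'⟩
      simpa [J, hφa] using this
    exact hGne _ hmem hz
  obtain ⟨ε, hε, hball⟩ := Metric.isOpen_iff.1 hPclosed.isOpen_compl 0 h0P
  set δ : ℝ := ε / 2 with hδdef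
  have hδ : 0 < δ := by positivity
  have hδP : δ ∉ Prod.fst '' C := by
    have : δ ∈ ball (0 : ℝ) ε := by
      rw [mem_ball_zero_iff, Real.norm_of_nonneg hδ.le, hδdef]
      linarith
    exact hball this
  -- the selection
  have hex : ∀ v : sphere (0 : E') 1, ∃ x : Lens w,
      ∀ z : Lens w, J π w δ (v : E') (z : X) ≤ J π w δ (v : E') (x : X) := by
    intro v
    obtain ⟨x, hx, hm⟩ := exists_max_J (π := π) hw2 δ (v : E')
    exact ⟨⟨x, hx⟩, fun z => hm z z.2⟩
  choose s hs using hex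
  have hsne : ∀ v, G (s v : X) ≠ 0 := by
    intro v h
    exact hδP ⟨(δ, v, s v), ⟨hs v, h⟩, rfl⟩
  have hscont : Continuous s := by
    apply continuous_of_closed_graph
    have e : {p : sphere (0 : E') 1 × Lens w | s p.1 = p.2} =
        ⋂ z : Lens w, {p : sphere (0 : E') 1 × Lens w |
          J π w δ (p.1 : E') (z : X) ≤ J π w δ (p.1 : E') (p.2 : X)} := by
      ext ⟨v, x⟩
      simp only [mem_ofPred_eq, mem_iInter]
      constructor
      · rintro rfl z
        exact hs v z
      · intro h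
        apply Subtype.ext
        exact J_unique hδ (s v).2 x.2 (fun z hz => hs v ⟨z, hz⟩) (fun z hz => h ⟨z, hz⟩)
    rw [e]
    refine isClosed_iInter fun z => isClosed_le ?_ ?_
    · exact continuous_J_of continuous_const (continuous_subtype_val.comp continuous_fst)
        continuous_const
    · exact continuous_J_of continuous_const (continuous_subtype_val.comp continuous_fst)
        (continuous_subtype_val.comp continuous_snd)
  have hsodd : ∀ v : sphere (0 : E') 1, (s (-v) : X) = w - (s v : X) := by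
    intro v
    have hmem : w - (s v : X) ∈ Lens w := Lens_symm (s v).2
    apply J_unique (π := π) (δ := δ) (v := -(v : E')) hδ (s (-v)).2 hmem
    · intro z hz
      have := hs (-v) ⟨z, hz⟩
      simpa using this
    · intro z hz
      have h1 := hs v ⟨w - z, Lens_symm hz⟩
      have h2 : J π w δ (-(v : E')) z = J π w δ (v : E') (w - z) := by
        have := J_symm (π := π) hπw δ (v : E') (w - z)
        rw [sub_sub_cancel] at this
        exact this
      rw [h2, J_symm hπw]
      exact h1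
  exact no_odd_sphere hdim3 (fun v => G (s v : X))
    (hGc.comp (continuous_subtype_val.comp hscont)) hsne (fun v => by
      show G (s (-v) : X) = -G (s v : X)
      rw [hsodd, hGodd])

/-- Borsuk-Ulam on `Ew w`, for every norm, in dimension at least four. -/
theorem no_odd_Ew (hdim : 4 ≤ Module.finrank ℝ X) {w : X} (hw : w ≠ 0) (hw2 : ‖w‖ < 2)
    (Ξ : Ew w → ℂ) (hc : Continuous Ξ) (h0 : ∀ t, Ξ t ≠ 0)
    (hodd : ∀ t, Ξ (rho w t) = -Ξ t) : False := by
  obtain ⟨k, hk⟩ : ∃ k, Module.finrank ℝ X = k + 2 := ⟨Module.finrank ℝ X - 2, by omega⟩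
  obtain ⟨π, h1, h2⟩ := exists_proj hw hk
  have hπw : π w = 0 := (h1 w).2 ⟨1, by simp⟩
  exact no_odd_of_proj hw2 hπw h2 (by simp; omega) Ξ hc h0 hodd

end Main

end Vale.Agent.Lib.P084.RNP
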