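import Mathlib

/-! Topological core without local connectedness: an even function on a compact connected Hausdorff
space without odd maps to the punctured plane, invariant under a unit distance relation with far
antipodes, is constant. (Theorem 1 of the RNP plan.) -/

namespace Vale.Agent.Lib.P084.RNP

open Set Filter Topology

variable {Z : Type*} [TopologicalSpace Z]

/-- A clopen set of a compact subset sitting inside a strict sublevel: if the component of `y₀`
in a compact Hausdorff space lies in an open set, some clopen set does. -/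
lemma exists_clopen_of_component_subset {K : Type*} [TopologicalSpace K] [CompactSpace K]
    [T2Space K] (y₀ : K) {O : Set K} (hO : IsOpen O) (hsub : connectedComponent y₀ ⊆ O) :
    ∃ U : Set K, IsClopen U ∧ y₀ ∈ U ∧ U ⊆ O := by
  classical
  have hcomp : IsCompact (Oᶜ) := hO.isClosed_compl.isCompact
  have hinter : Oᶜ ∩ ⋂ s : {s : Set K // IsClopen s ∧ y₀ ∈ s}, (s : Set K) = ∅ := by
    rw [← connectedComponent_eq_iInter_isClopen]
    ext x
    constructor
    · rintro ⟨h1, h2⟩
      exact h1 (hsub h2)
    · intro h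
      exact absurd h (Set.notMem_empty x)
  obtain ⟨t, ht⟩ := hcomp.elim_finite_subfamily_closed
    (fun s : {s : Set K // IsClopen s ∧ y₀ ∈ s} => (s : Set K)) (fun s => s.2.1.isClosed) hinter
  refine ⟨⋂ s ∈ t, (s : Set K), isClopen_biInter_finset (fun s _ => s.2.1), ?_, ?_⟩
  · simp only [mem_iInter]
    exact fun s _ => s.2.2
  · intro x hx
    by_contra hxO
    have : x ∈ Oᶜ ∩ ⋂ s ∈ t, (s : Set K) := ⟨hxO, hx⟩
    rw [ht] at this
    exact this

/-- A component of a strict sublevel set contains no pair `y, ρ y`. -/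
lemma free_comp' [CompactSpace Z] [T2Space Z] [ConnectedSpace Z] {ρ : Z → Z} (hρ : Continuous ρ)
    {d : Z → Z → ℝ} (hdc : ∀ v, Continuous fun t => d t v) (hself : ∀ a, d a a = 0)
    (hfar : ∀ v, 1 < d (ρ v) v) {h : Z → ℝ} (hc : Continuous h) (heven : ∀ t, h (ρ t) = h t)
    (hrel : ∀ s t, d s t = 1 → h s = h t) {c : ℝ} {t₀ : Z} (ht₀ : c ≤ h t₀) {y : Z} (hy : h y < c) :
    ρ y ∉ connectedComponentIn {t | h t < c} y := by
  intro hmem
  set A : Set Z := {t | h t < c} with hA
  have hAopen : IsOpen A := isOpen_lt hc continuous_const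
  set W := connectedComponentIn A y with hW
  have hWconn : IsPreconnected W := isPreconnected_connectedComponentIn
  have hWsub : W ⊆ A := connectedComponentIn_subset A y
  have hyW : y ∈ W := mem_connectedComponentIn hy
  -- `ρ` preserves `W`
  have hρW : ∀ x ∈ W, ρ x ∈ W := by
    have himg : IsPreconnected (ρ '' W) := hWconn.image _ hρ.continuousOn
    have hsub : ρ '' W ⊆ A := by
      rintro _ ⟨a, ha, rfl⟩
      have : h a < c := hWsub ha
      show h (ρ a) < c
      rw [heven]
      exact this
    have h2 : ρ '' W ⊆ connectedComponentIn A (ρ y) :=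
      himg.subset_connectedComponentIn (mem_image_of_mem _ hyW) hsub
    have e : connectedComponentIn A (ρ y) = W := (connectedComponentIn_eq hmem).symm
    rw [e] at h2
    exact fun x hx => h2 (mem_image_of_mem _ hx)
  -- the closure of `W` reaches the level `c`
  have hv : ∃ v ∈ closure W, h v = c := by
    by_contra hno
    push Not at hno
    have hclA : closure W ⊆ A := by
      intro x hx
      have hle : h x ≤ c := closure_minimal (fun t ht => le_of_lt (show h t < c from hWsub ht))
        (isClosed_le hc continuous_const) hx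
      exact lt_of_le_of_ne hle (hno x hx)
    have hclW : closure W ⊆ W :=
      hWconn.closure.subset_connectedComponentIn (subset_closure hyW) hclA
    have hWclosed : IsClosed W := isClosed_of_closure_subset hclW
    have hWcompact : IsCompact W := hWclosed.isCompact
    obtain ⟨m, hmW, hm⟩ := hWcompact.exists_isMaxOn ⟨y, hyW⟩ hc.continuousOn
    have hmlt : h m < c := hWsub hmW
    obtain ⟨c', hc'1, hc'2⟩ := exists_between hmlt
    -- the compact sublevel
    set K : Set Z := {t | h t ≤ c'} with hK
    have hKclosed : IsClosed K := isClosed_le hc continuous_const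
    have : CompactSpace K := isCompact_iff_compactSpace.1 hKclosed.isCompact
    have hyK : y ∈ K := le_trans (hm hyW) hc'1.le
    set y₀ : K := ⟨y, hyK⟩ with hy₀
    set O : Set K := Subtype.val ⁻¹' {t | h t < c'} with hO
    have hOopen : IsOpen O := (isOpen_lt hc continuous_const).preimage continuous_subtype_val
    have hcsub : connectedComponent y₀ ⊆ O := by
      have himg : IsPreconnected ((Subtype.val : K → Z) '' connectedComponent y₀) :=
        isPreconnected_connectedComponent.image _ continuous_subtype_val.continuousOn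
      have hsubA : (Subtype.val : K → Z) '' connectedComponent y₀ ⊆ A := by
        rintro _ ⟨a, _, rfl⟩
        exact lt_of_le_of_lt a.2 hc'2
      have hin := himg.subset_connectedComponentIn
        (mem_image_of_mem _ (mem_connectedComponent (x := y₀))) hsubA
      intro a ha
      have haW : (a : Z) ∈ W := hin (mem_image_of_mem _ ha)
      exact lt_of_le_of_lt (hm haW) hc'1
    obtain ⟨U, hUc, hyU, hUO⟩ := exists_clopen_of_component_subset y₀ hOopen hcsub
    -- transport to `Z`
    set U' : Set Z := Subtype.val '' U with hU'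
    have hU'closed : IsClosed U' := (hUc.isClosed.isCompact.image continuous_subtype_val).isClosed
    have hU'open : IsOpen U' := by
      obtain ⟨V, hVo, hV⟩ := isOpen_induced_iff.1 hUc.isOpen
      have : U' = V ∩ {t | h t < c'} := by
        ext x
        constructor
        · rintro ⟨a, ha, rfl⟩
          refine ⟨?_, hUO ha⟩
          rw [← hV] at ha
          exact ha
        · rintro ⟨h1, h2⟩
          have hxK : x ∈ K := show h x ≤ c' from le_of_lt (show h x < c' from h2)
          refine ⟨⟨x, hxK⟩, ?_, rfl⟩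
          rw [← hV]
          exact h1
      rw [this]
      exact hVo.inter (isOpen_lt hc continuous_const)
    have hclopen : IsClopen U' := ⟨hU'closed, hU'open⟩
    rcases isClopen_iff.1 hclopen with h0 | h1
    · have : y ∈ U' := ⟨y₀, hyU, rfl⟩
      rw [h0] at this
      exact this
    · have : t₀ ∈ U' := by rw [h1]; trivial
      obtain ⟨a, ha, rfl⟩ := this
      have h2 : h a < c' := hUO ha
      linarith
  obtain ⟨v, hvcl, hvc⟩ := hv
  have hρv : ρ v ∈ closure W := map_mem_closure hρ hvcl hρW
  obtain ⟨t1, ht1a, ht1W⟩ := mem_closure_iff.1 hvcl {t | d t v < 1}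
    (isOpen_lt (hdc v) continuous_const) (by show d v v < 1; rw [hself]; exact zero_lt_one)
  obtain ⟨t2, ht2a, ht2W⟩ := mem_closure_iff.1 hρv {t | 1 < d t v}
    (isOpen_lt continuous_const (hdc v)) (hfar v)
  obtain ⟨t, ht, ht1⟩ := hWconn.intermediate_value ht1W ht2W (hdc v).continuousOn
    ⟨le_of_lt ht1a, le_of_lt ht2a⟩
  have := hrel t v ht1
  have hlt : h t < c := hWsub ht
  linarith

/-- Stone: a compact Hausdorff space with an involution moving no point inside its component has a
clopen set exchanged with its complement. -/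
lemma stone_sign {K : Type*} [TopologicalSpace K] [CompactSpace K] [T2Space K] {ρ : K → K}
    (hρ : Continuous ρ) (hρρ : ∀ z, ρ (ρ z) = z) (hfree : ∀ y, ρ y ∉ connectedComponent y) :
    ∃ L : Set K, IsClopen L ∧ ∀ y, (y ∈ L ↔ ρ y ∉ L) := by
  classical
  -- local pieces
  have hloc : ∀ y : K, ∃ V : Set K, IsClopen V ∧ y ∈ V ∧ ∀ z ∈ V, ρ z ∉ V := by
    intro y
    have hne : ρ y ∉ ⋂ s : {s : Set K // IsClopen s ∧ y ∈ s}, (s : Set K) := by
      rw [← connectedComponent_eq_iInter_isClopen]
      exact hfree y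
    simp only [mem_iInter, not_forall] at hne
    obtain ⟨⟨U, hUc, hyU⟩, hUn⟩ := hne
    refine ⟨U \ (ρ ⁻¹' U), hUc.diff (hUc.preimage hρ), ⟨hyU, hUn⟩, ?_⟩
    rintro z ⟨_, hz2⟩ ⟨hz3, _⟩
    exact hz2 hz3
  choose V hVc hyV hVfree using hloc
  obtain ⟨t, ht⟩ := CompactSpace.elim_nhds_subcover V (fun y => (hVc y).isOpen.mem_nhds (hyV y))
  -- induction along the cover
  have hind : ∀ s : Finset K, ∃ L : Set K, IsClopen L ∧ (∀ z ∈ L, ρ z ∉ L) ∧
      ∀ x ∈ s, ∀ z ∈ V x, z ∈ L ∨ ρ z ∈ L := by
    intro s
    induction s using Finset.induction_on with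
    | empty => exact ⟨∅, isClopen_empty, by simp, by simp⟩
    | insert x s _ ih =>
      obtain ⟨L, hLc, hLfree, hLcov⟩ := ih
      set V' : Set K := V x \ (L ∪ ρ ⁻¹' L) with hV'
      have hV'c : IsClopen V' := (hVc x).diff (hLc.union (hLc.preimage hρ))
      refine ⟨L ∪ V', hLc.union hV'c, ?_, ?_⟩
      · rintro z (hz | hz) (hz2 | hz2)
        · exact hLfree z hz hz2
        · apply hz2.2
          left
          exact False.elim (hz2.2 (Or.inr (by show ρ (ρ z) ∈ L; rw [hρρ]; exact hz)))
        · exact hz.2 (Or.inr hz2)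
        · exact hVfree x z hz.1 hz2.1
      · intro x' hx' z hz
        rcases Finset.mem_insert.1 hx' with rfl | hx's
        · by_cases hzL : z ∈ L ∪ ρ ⁻¹' L
          · rcases hzL with h1 | h1
            · exact Or.inl (Or.inl h1)
            · exact Or.inr (Or.inl h1)
          · exact Or.inl (Or.inr ⟨hz, hzL⟩)
        · rcases hLcov x' hx's z hz with h1 | h1
          · exact Or.inl (Or.inl h1)
          · exact Or.inr (Or.inl h1)
  obtain ⟨L, hLc, hLfree, hLcov⟩ := hind t
  refine ⟨L, hLc, fun y => ⟨hLfree y, fun hy => ?_⟩⟩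
  have hy' : y ∈ ⋃ x ∈ t, V x := by rw [ht]; trivial
  simp only [mem_iUnion] at hy'
  obtain ⟨x, hx, hyx⟩ := hy'
  rcases hLcov x hx y hyx with h1 | h1
  · exact h1
  · exact absurd h1 hy

/-- A compact sublevel set of a continuous even function with free components carries an odd
`±1` sign; the sign times a bump vanishing off the sublevel is continuous on `Z`. -/
lemma exists_odd_bump [CompactSpace Z] [T2Space Z] {ρ : Z → Z} (hρ : Continuous ρ)
    (hρρ : ∀ z, ρ (ρ z) = z) {g : Z → ℝ} (hg : Continuous g) (hgev : ∀ t, g (ρ t) = g t)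
    {c₂ c₃ : ℝ} (h23 : c₂ < c₃)
    (hfree : ∀ y, g y < c₃ → ρ y ∉ connectedComponentIn {t | g t < c₃} y) :
    ∃ p : Z → ℝ, Continuous p ∧ (∀ t, p (ρ t) = - p t) ∧
      ∀ t, g t < c₂ → p t ≠ 0 := by
  classical
  set K : Set Z := {t | g t ≤ c₂} with hK
  have hKclosed : IsClosed K := isClosed_le hg continuous_const
  have : CompactSpace K := isCompact_iff_compactSpace.1 hKclosed.isCompact
  have hρK : ∀ a : K, g (ρ a) ≤ c₂ := fun a => by rw [hgev]; exact a.2
  set ρ₀ : K → K := fun a => ⟨ρ a, hρK a⟩ with hρ₀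
  have hρ₀c : Continuous ρ₀ := (hρ.comp continuous_subtype_val).subtype_mk _
  have hρ₀ρ₀ : ∀ z, ρ₀ (ρ₀ z) = z := fun z => Subtype.ext (hρρ z)
  have hfree₀ : ∀ y : K, ρ₀ y ∉ connectedComponent y := by
    intro y hy
    have himg : IsPreconnected ((Subtype.val : K → Z) '' connectedComponent y) :=
      isPreconnected_connectedComponent.image _ continuous_subtype_val.continuousOn
    have hsub : (Subtype.val : K → Z) '' connectedComponent y ⊆ {t | g t < c₃} := by
      rintro _ ⟨a, _, rfl⟩
      exact lt_of_le_of_lt a.2 h23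
    have hin := himg.subset_connectedComponentIn
      (mem_image_of_mem _ (mem_connectedComponent (x := y))) hsub
    exact hfree y (lt_of_le_of_lt y.2 h23) (hin (mem_image_of_mem _ hy))
  obtain ⟨L, hLc, hL⟩ := stone_sign hρ₀c hρ₀ρ₀ hfree₀
  -- closed pieces in `Z`
  set L₁ : Set Z := Subtype.val '' L with hL₁
  set L₂ : Set Z := Subtype.val '' (ρ₀ ⁻¹' L) with hL₂
  have hL₁c : IsClosed L₁ := (hLc.isClosed.isCompact.image continuous_subtype_val).isClosed
  have hL₂c : IsClosed L₂ :=
    ((hLc.isClosed.preimage hρ₀c).isCompact.image continuous_subtype_val).isClosed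
  set a : Z → ℝ := fun x => max 0 (c₂ - g x) with ha
  have hac : Continuous a := continuous_const.max (continuous_const.sub hg)
  have hmem : ∀ x (hx : x ∈ K), (x ∈ L₁ ↔ (⟨x, hx⟩ : K) ∈ L) := by
    intro x hx
    constructor
    · rintro ⟨b, hb, rfl⟩
      exact hb
    · intro h1
      exact ⟨_, h1, rfl⟩
  set p : Z → ℝ := fun x => if x ∈ L₁ then a x else - a x with hp
  refine ⟨p, ?_, ?_, ?_⟩
  · -- continuity by gluing along three closed sets
    have h3 : IsClosed {t | c₂ ≤ g t} := isClosed_le continuous_const hg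
    have hcov : (L₁ ∪ L₂) ∪ {t | c₂ ≤ g t} = univ := by
      ext x
      simp only [mem_union, mem_univ, iff_true]
      by_cases hx : x ∈ K
      · by_cases hxL : (⟨x, hx⟩ : K) ∈ L
        · exact Or.inl (Or.inl ⟨_, hxL, rfl⟩)
        · refine Or.inl (Or.inr ⟨⟨x, hx⟩, ?_, rfl⟩)
          by_contra hc
          exact hxL ((hL _).2 hc)
      · exact Or.inr (show c₂ ≤ g x from le_of_lt (not_le.1 (show ¬ g x ≤ c₂ from hx)))
    have hdisj : ∀ x, x ∈ L₂ → x ∉ L₁ := by
      rintro x ⟨b, hb, rfl⟩ ⟨b', hb', hbb'⟩
      have : b' = b := Subtype.ext hbb'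
      rw [this] at hb'
      exact (hL b).1 hb' hb
    have c1 : ContinuousOn p L₁ := hac.continuousOn.congr (fun x hx => by simp only [hp, if_pos hx])
    have c2 : ContinuousOn p L₂ :=
      hac.neg.continuousOn.congr (fun x hx => by simp only [hp, if_neg (hdisj x hx)]; rfl)
    have c3 : ContinuousOn p {t | c₂ ≤ g t} := by
      have : ContinuousOn (fun _ : Z => (0 : ℝ)) {t | c₂ ≤ g t} := continuousOn_const
      refine this.congr ?_
      intro x hx
      have hax : a x = 0 := max_eq_left (by have : c₂ ≤ g x := hx; linarith)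
      by_cases hx1 : x ∈ L₁ <;> simp [hp, hx1, hax]
    have hall := (c1.union_of_isClosed c2 hL₁c hL₂c).union_of_isClosed c3 (hL₁c.union hL₂c) h3
    rw [hcov] at hall
    exact continuousOn_univ.1 hall
  · intro t
    have hat : a (ρ t) = a t := by simp only [ha, hgev]
    by_cases ht : t ∈ K
    · have hρt : ρ t ∈ K := by
        show g (ρ t) ≤ c₂
        rw [hgev]
        exact ht
      have e1 : ρ t ∈ L₁ ↔ ρ₀ ⟨t, ht⟩ ∈ L := hmem (ρ t) hρt
      have e2 : t ∈ L₁ ↔ (⟨t, ht⟩ : K) ∈ L := hmem t ht
      have e3 := hL ⟨t, ht⟩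
      by_cases h1 : t ∈ L₁
      · have h2 : ρ t ∉ L₁ := by
          rw [e1]
          exact e3.1 (e2.1 h1)
        simp only [hp, if_pos h1, if_neg h2, hat]
      · have h2 : ρ t ∈ L₁ := by
          rw [e1]
          by_contra hc
          exact h1 (e2.2 (e3.2 hc))
        simp only [hp, if_neg h1, if_pos h2, hat, neg_neg]
    · have hax : a t = 0 := max_eq_left (by
        have : c₂ < g t := not_le.1 ht
        linarith)
      have hax' : a (ρ t) = 0 := by rw [hat, hax]
      by_cases h1 : t ∈ L₁ <;> by_cases h2 : ρ t ∈ L₁ <;> simp [hp, h1, h2, hax, hax']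
  · intro t ht
    have hpos : 0 < a t := lt_max_of_lt_right (by linarith)
    by_cases h1 : t ∈ L₁
    · simp only [hp, if_pos h1]
      exact hpos.ne'
    · simp only [hp, if_neg h1]
      exact (neg_neg_of_pos hpos).ne

/-- **Theorem 1** (no local connectedness). `Z` compact Hausdorff connected, `ρ` a continuous
involution, `d` continuous in each variable with `d a a = 0` and `1 < d (ρ v) v`, no continuous
nowhere zero odd map to `ℂ`. A continuous even `h` with `d s t = 1 → h s = h t` is constant. -/
theorem even_const' [CompactSpace Z] [T2Space Z] [ConnectedSpace Z] {ρ : Z → Z}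
    (hρ : Continuous ρ) (hρρ : ∀ z, ρ (ρ z) = z)
    (hBU : ∀ Ξ : Z → ℂ, Continuous Ξ → (∀ t, Ξ t ≠ 0) → (∀ t, Ξ (ρ t) = -Ξ t) → False)
    {d : Z → Z → ℝ} (hdc : ∀ v, Continuous fun t => d t v) (hself : ∀ a, d a a = 0)
    (hfar : ∀ v, 1 < d (ρ v) v) {h : Z → ℝ} (hc : Continuous h) (heven : ∀ t, h (ρ t) = h t)
    (hrel : ∀ s t, d s t = 1 → h s = h t) (s t : Z) : h s = h t := by
  by_contra hne
  wlog hlt : h s < h t generalizing s t
  · exact this t s (Ne.symm hne) (lt_of_le_of_ne (not_lt.1 hlt) (Ne.symm hne))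
  obtain ⟨c1, hc1, hc12⟩ := exists_between hlt
  obtain ⟨c2, hc2, hc23⟩ := exists_between hc12
  obtain ⟨c0, hc0, hc01⟩ := exists_between hc1
  obtain ⟨c3, hc3, hc34⟩ := exists_between hc23
  -- the sublevel side
  obtain ⟨p, hpc, hpo, hpn⟩ := exists_odd_bump (g := h) hρ hρρ hc heven hc3
    (fun y hy => free_comp' hρ hdc hself hfar hc heven hrel (t₀ := t) hc34.le hy)
  -- the superlevel side
  obtain ⟨q, hqc, hqo, hqn⟩ := exists_odd_bump (g := fun x => -h x) (c₂ := -c1) (c₃ := -c0) hρ hρρ
    hc.neg (fun x => show -h (ρ x) = -h x by rw [heven]) (neg_lt_neg hc01)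
    (fun y hy => free_comp' (h := fun x => -h x) hρ hdc hself hfar hc.neg
      (fun x => show -h (ρ x) = -h x by rw [heven])
      (fun a b hab => show -h a = -h b by rw [hrel a b hab]) (t₀ := s) (neg_le_neg hc0.le) hy)
  apply hBU (fun x => ((p x : ℝ) : ℂ) + ((q x : ℝ) : ℂ) * Complex.I)
  · exact (Complex.continuous_ofReal.comp hpc).add
      ((Complex.continuous_ofReal.comp hqc).mul continuous_const)
  · intro x h0
    have hre : p x = 0 := by
      have := congrArg Complex.re h0
      simpa using this
    have him : q x = 0 := by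
      have := congrArg Complex.im h0
      simpa using this
    by_cases hx : h x < c2
    · have := hpn x hx
      exact this hre
    · have hx' : c2 ≤ h x := not_lt.1 hx
      have := hqn x (show -h x < -c1 by linarith)
      exact this him
  · intro x
    simp only [hpo, hqo]
    push_cast
    ring

end Vale.Agent.Lib.P084.RNP
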