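/-
The final step of `NS/FinalStep`, without surjectivity of the map on the sphere: the same proofs,
with the isometry hypothesis split into `norm_eq` and `iso`.  The conclusion is a linear isometry
of `X` into `Y` which agrees with the map on the unit sphere.
-/
import Mathlib
import Vale.Agent.Lib.P084.NS.FinalStep

namespace Vale.Agent.Lib.P084.RNP

open Vale.Agent.Lib.P084.UC
open Vale.Agent.Lib.P084.NS
open Vale.Agent.Lib.P084.Dim4 (Ew Lens Ew_rho isCompact_Lens)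
open Metric Set Filter Topology

variable {X Y : Type*} [NormedAddCommGroup X] [NormedSpace ℝ X] [NormedAddCommGroup Y]
  [NormedSpace ℝ Y]

/-- The hypotheses of the final step, without surjectivity. -/
structure FinalHyp0 (f : X → Y) : Prop where
  norm_eq : ∀ x : X, ‖x‖ = 1 → ‖f x‖ = 1
  iso : ∀ x x' : X, ‖x‖ = 1 → ‖x'‖ = 1 → ‖f x - f x'‖ = ‖x - x'‖
  hodd : ∀ x : X, ‖x‖ = 1 → f (-x) = - f x
  hconn : ∀ w : X, w ≠ 0 → ‖w‖ < 2 → (Ew w).Nonempty ∧ IsPreconnected (Ew w)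
  hK : ∀ w : X, w ≠ 0 → ‖w‖ < 1 → ∀ s ∈ Ew w, ∀ t ∈ Ew w, f s + f (w - s) = f t + f (w - t)

variable {f : X → Y}
/-- The chord relation. -/
theorem FinalHyp0.chord (H : FinalHyp0 f) {x x' a a' : X} (hx : ‖x‖ = 1) (hx' : ‖x'‖ = 1)
    (ha : ‖a‖ = 1) (ha' : ‖a'‖ = 1) (he : x - x' = a - a') (hsmall : ‖x - x'‖ < 1) :
    f x - f x' = f a - f a' := by
  by_cases h0 : x - x' = 0
  · have h1 : x = x' := sub_eq_zero.1 h0
    have h2 : a = a' := sub_eq_zero.1 (by rw [← he]; exact h0)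
    rw [h1, h2, sub_self, sub_self]
  · have hxE : x ∈ Ew (x - x') := by
      refine ⟨hx, ?_⟩
      have e : x - (x - x') = x' := by abel
      rw [e]; exact hx'
    have haE : a ∈ Ew (x - x') := by
      refine ⟨ha, ?_⟩
      have e : a - (x - x') = a' := by rw [he]; abel
      rw [e]; exact ha'
    have h1 := H.hK _ h0 hsmall x hxE a haE
    have e1 : x - x' - x = -x' := by abel
    have e2 : x - x' - a = -a' := by rw [he]; abel
    rw [e1, e2, H.hodd _ hx', H.hodd _ ha'] at h1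
    rw [sub_eq_add_neg, sub_eq_add_neg]
    exact h1

/-- Constancy of the sum on all of `Ew w`, `‖w‖ < 2`. -/
theorem FinalHyp0.K_const (H : FinalHyp0 f) {w : X} (hw2 : ‖w‖ < 2) {s t : X} (hs : s ∈ Ew w)
    (ht : t ∈ Ew w) : f s + f (w - s) = f t + f (w - t) := by
  by_cases hw : w = 0
  · subst hw
    have hs1 : ‖s‖ = 1 := hs.1
    have ht1 : ‖t‖ = 1 := ht.1
    rw [zero_sub, zero_sub, H.hodd _ hs1, H.hodd _ ht1]
    simp
  · have hps : PreconnectedSpace (Ew w) :=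
      isPreconnected_iff_preconnectedSpace.1 (H.hconn w hw hw2).2
    have hloc : IsLocallyConstant (fun z : Ew w => f z + f (w - z)) := by
      rw [IsLocallyConstant.iff_eventually_eq]
      intro z
      filter_upwards [Metric.ball_mem_nhds z one_pos] with y hy
      have hy' : ‖(y : X) - z‖ < 1 := by
        have : dist y z < 1 := hy
        rwa [Subtype.dist_eq, dist_eq_norm] at this
      have hch := H.chord y.2.1 z.2.1 (Ew_rho z.2).1 (Ew_rho y.2).1
        (by abel : (y : X) - z = (w - z) - (w - y)) hy'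
      calc f y + f (w - y) = (f y - f z) + f (w - y) + f z := by abel
        _ = (f (w - z) - f (w - y)) + f (w - y) + f z := by rw [hch]
        _ = f z + f (w - z) := by abel
    exact hloc.apply_eq_of_preconnectedSpace ⟨s, hs⟩ ⟨t, ht⟩

theorem FinalHyp0.G_eq (H : FinalHyp0 f) {w x : X} (hw2 : ‖w‖ < 2) (hx : x ∈ Ew w) :
    Gmap f w = f x + f (w - x) := by
  have hne : (Ew w).Nonempty := ⟨x, hx⟩
  rw [Gmap, dif_pos hne]
  exact H.K_const hw2 hne.some_mem hx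

/-- The form used: `f x - f x' = G (x - x')`. -/
theorem FinalHyp0.G_sub (H : FinalHyp0 f) {x x' : X} (hx : ‖x‖ = 1) (hx' : ‖x'‖ = 1)
    (h2 : ‖x - x'‖ < 2) : Gmap f (x - x') = f x - f x' := by
  have hxE : x ∈ Ew (x - x') := by
    refine ⟨hx, ?_⟩
    have e : x - (x - x') = x' := by abel
    rw [e]; exact hx'
  rw [H.G_eq h2 hxE]
  have e1 : x - x' - x = -x' := by abel
  rw [e1, H.hodd _ hx', sub_eq_add_neg]

theorem FinalHyp0.G_zero (H : FinalHyp0 f) : Gmap f (0 : X) = 0 := by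
  by_cases hne : (Ew (0 : X)).Nonempty
  · obtain ⟨x, hx⟩ := hne
    have := H.G_sub hx.1 hx.1 (by simp)
    rw [sub_self, sub_self] at this
    exact this
  · rw [Gmap, dif_neg hne]

theorem FinalHyp0.G_norm (H : FinalHyp0 f) {w : X} (hw2 : ‖w‖ < 2) : ‖Gmap f w‖ = ‖w‖ := by
  by_cases hw : w = 0
  · rw [hw, H.G_zero, norm_zero, norm_zero]
  obtain ⟨x, hx⟩ := (H.hconn w hw hw2).1
  have e : x - (x - w) = w := by abel
  have h1 := H.G_sub hx.1 hx.2 (by rw [e]; exact hw2)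
  rw [e] at h1
  rw [h1, H.iso _ _ hx.1 hx.2, e]

theorem FinalHyp0.G_neg (H : FinalHyp0 f) {w : X} (hw2 : ‖w‖ < 2) : Gmap f (-w) = - Gmap f w := by
  by_cases hw : w = 0
  · rw [hw, neg_zero, H.G_zero, neg_zero]
  obtain ⟨x, hx⟩ := (H.hconn w hw hw2).1
  have e : x - (x - w) = w := by abel
  have h1 := H.G_sub hx.1 hx.2 (by rw [e]; exact hw2)
  rw [e] at h1
  have e2 : (x - w) - x = -w := by abel
  have h2 := H.G_sub hx.2 hx.1 (by rw [e2, norm_neg]; exact hw2)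
  rw [e2] at h2
  rw [h1, h2]; abel

/-- Additivity along a triple: the centre form. -/
theorem FinalHyp0.G_triple (H : FinalHyp0 f) {u v z : X} (hz : z ∈ Ew u) (hzv : ‖z + v‖ = 1)
    (hu2 : ‖u‖ < 2) (hv2 : ‖v‖ < 2) (huv : ‖u + v‖ < 2) :
    Gmap f (u + v) = Gmap f u + Gmap f v := by
  have e1 : (z + v) - (z - u) = u + v := by abel
  have e2 : z - (z - u) = u := by abel
  have e3 : (z + v) - z = v := by abel
  have h1 := H.G_sub hzv hz.2 (by rw [e1]; exact huv)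
  have h2 := H.G_sub hz.1 hz.2 (by rw [e2]; exact hu2)
  have h3 := H.G_sub hzv hz.1 (by rw [e3]; exact hv2)
  rw [e1] at h1
  rw [e2] at h2
  rw [e3] at h3
  rw [h1, h2, h3]; abel

section Add

variable [FiniteDimensional ℝ X]

/-- Additivity of `G` near `0`. -/
theorem FinalHyp0.G_add (H : FinalHyp0 f) (hdim : 3 ≤ Module.finrank ℝ X) {u1 u2 : X}
    (n1 : ‖u1‖ ≤ 1 / 8) (n2 : ‖u2‖ ≤ 1 / 8) (n12 : ‖u1 + u2‖ ≤ 1 / 8) :
    Gmap f (u1 + u2) = Gmap f u1 + Gmap f u2 := by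
  by_cases h1 : u1 = 0
  · rw [h1, zero_add, H.G_zero, zero_add]
  by_cases h2 : u2 = 0
  · rw [h2, add_zero, H.G_zero, add_zero]
  by_cases h12 : u1 + u2 = 0
  · have e : u2 = -u1 := by
      rw [eq_neg_iff_add_eq_zero, add_comm]
      exact h12
    rw [h12, H.G_zero, e, H.G_neg (by linarith), add_neg_cancel]
  obtain ⟨ψ, y, hψ, hy, hψy, hψ1, hψ2⟩ := exists_top hdim u1 u2
  have hψ12 : ψ (u1 + u2) = 0 := by rw [map_add, hψ1, hψ2, add_zero]
  -- first triple
  obtain ⟨z1, hz1, hz1v⟩ := exists_triple (v := y) h1 (by linarith) hy hψ hψy hψ1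
    (H.hconn u1 h1 (by linarith)).2 (by rw [sub_self, norm_zero]; linarith)
  have hy2 : ‖y‖ < 2 := by rw [hy]; norm_num
  have hu1y : ‖u1 + y‖ ≤ 9 / 8 := by
    calc _ ≤ ‖u1‖ + ‖y‖ := norm_add_le _ _
      _ ≤ _ := by rw [hy]; linarith
  have e1 := H.G_triple hz1 hz1v (by linarith) hy2 (by linarith)
  -- second triple
  obtain ⟨z2, hz2, hz2v⟩ := exists_triple (v := y) h12 (by linarith) hy hψ hψy hψ12
    (H.hconn _ h12 (by linarith)).2 (by rw [sub_self, norm_zero]; linarith)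
  have hu12y : ‖u1 + u2 + y‖ ≤ 9 / 8 := by
    calc _ ≤ ‖u1 + u2‖ + ‖y‖ := norm_add_le _ _
      _ ≤ _ := by rw [hy]; linarith
  have e2 := H.G_triple hz2 hz2v (by linarith) hy2 (by linarith)
  -- third triple
  obtain ⟨z3, hz3, hz3v⟩ := exists_triple (v := u1 + y) h2 (by linarith) hy hψ hψy hψ2
    (H.hconn u2 h2 (by linarith)).2 (by
      have e : u1 + y - y = u1 := by abel
      rw [e]; linarith)
  have e4 : u2 + (u1 + y) = u1 + u2 + y := by abel
  have e3 := H.G_triple hz3 hz3v (by linarith) (by linarith) (by rw [e4]; linarith)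
  rw [e4, e2, e1] at e3
  have : Gmap f (u1 + u2) + Gmap f y = (Gmap f u1 + Gmap f u2) + Gmap f y := by
    rw [e3]; abel
  exact add_right_cancel this

/-- Multiples. -/
theorem FinalHyp0.G_nsmul (H : FinalHyp0 f) (hdim : 3 ≤ Module.finrank ℝ X) {v : X} (k : ℕ)
    (hk : (k : ℝ) * ‖v‖ ≤ 1 / 8) : Gmap f ((k : ℝ) • v) = (k : ℝ) • Gmap f v := by
  induction k with
  | zero => simp [H.G_zero]
  | succ k ih =>
    have hk' : ((k : ℝ) + 1) * ‖v‖ ≤ 1 / 8 := by exact_mod_cast hk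
    have h1 : (k : ℝ) * ‖v‖ ≤ 1 / 8 := by nlinarith [norm_nonneg v]
    have h2 : ‖v‖ ≤ 1 / 8 := by
      have : (0 : ℝ) ≤ k * ‖v‖ := by positivity
      linarith
    have hn : ‖(k : ℝ) • v‖ = (k : ℝ) * ‖v‖ := by
      rw [norm_smul, Real.norm_of_nonneg (Nat.cast_nonneg k)]
    have e : (((k + 1 : ℕ) : ℝ)) • v = (k : ℝ) • v + v := by
      push_cast; rw [add_smul, one_smul]
    have hn2 : ‖(k : ℝ) • v + v‖ ≤ 1 / 8 := by
      rw [← e, norm_smul, Real.norm_of_nonneg (Nat.cast_nonneg _)]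
      exact hk
    rw [e, H.G_add hdim (by rw [hn]; exact h1) h2 hn2, ih h1]
    push_cast
    rw [add_smul, one_smul]

/-- Two scales agree. -/
theorem FinalHyp0.G_scale (H : FinalHyp0 f) (hdim : 3 ≤ Module.finrank ℝ X) (x : X) {n m : ℕ}
    (hn : 0 < n) (hm : 0 < m) (hnx : ‖x‖ ≤ n * (1 / 8)) (hmx : ‖x‖ ≤ m * (1 / 8)) :
    (n : ℝ) • Gmap f ((n : ℝ)⁻¹ • x) = (m : ℝ) • Gmap f ((m : ℝ)⁻¹ • x) := by
  have hn0 : (0 : ℝ) < n := by exact_mod_cast hn
  have hm0 : (0 : ℝ) < m := by exact_mod_cast hm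
  set v : X := ((n : ℝ) * m)⁻¹ • x with hv
  have hvn : ‖v‖ = ((n : ℝ) * m)⁻¹ * ‖x‖ := by
    rw [hv, norm_smul, norm_inv, Real.norm_of_nonneg (by positivity)]
  have e1 : (n : ℝ)⁻¹ • x = (m : ℝ) • v := by
    rw [hv, smul_smul]
    congr 1
    field_simp
  have e2 : (m : ℝ)⁻¹ • x = (n : ℝ) • v := by
    rw [hv, smul_smul]
    congr 1
    field_simp
  have h1 : (m : ℝ) * ‖v‖ ≤ 1 / 8 := by
    rw [hvn]
    have : (m : ℝ) * (((n : ℝ) * m)⁻¹ * ‖x‖) = (n : ℝ)⁻¹ * ‖x‖ := by field_simp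
    rw [this, inv_mul_le_iff₀ hn0]
    linarith
  have h2 : (n : ℝ) * ‖v‖ ≤ 1 / 8 := by
    rw [hvn]
    have : (n : ℝ) * (((n : ℝ) * m)⁻¹ * ‖x‖) = (m : ℝ)⁻¹ * ‖x‖ := by field_simp
    rw [this, inv_mul_le_iff₀ hm0]
    linarith
  rw [e1, e2, H.G_nsmul hdim m h1, H.G_nsmul hdim n h2, smul_smul, smul_smul, mul_comm]

end Add

section Ext

variable [FiniteDimensional ℝ X]

theorem FinalHyp0.T_eq (H : FinalHyp0 f) (hdim : 3 ≤ Module.finrank ℝ X) (x : X) {n : ℕ}
    (hn : 0 < n) (hnx : ‖x‖ ≤ n * (1 / 8)) :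
    Tmap f x = (n : ℝ) • Gmap f ((n : ℝ)⁻¹ • x) :=
  H.G_scale hdim x (scaleN_pos x) hn (scaleN_le x) hnx

theorem FinalHyp0.T_add (H : FinalHyp0 f) (hdim : 3 ≤ Module.finrank ℝ X) (x x' : X) :
    Tmap f (x + x') = Tmap f x + Tmap f x' := by
  set n : ℕ := scaleN x + scaleN x' + scaleN (x + x') with hn
  have hn0 : 0 < n := by
    have := scaleN_pos x
    omega
  have hcast : (n : ℝ) = scaleN x + scaleN x' + scaleN (x + x') := by
    rw [hn]; push_cast; ring
  have h0 : (0 : ℝ) ≤ (scaleN x : ℝ) := Nat.cast_nonneg _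
  have h0' : (0 : ℝ) ≤ (scaleN x' : ℝ) := Nat.cast_nonneg _
  have h0'' : (0 : ℝ) ≤ (scaleN (x + x') : ℝ) := Nat.cast_nonneg _
  have h1 : ‖x‖ ≤ n * (1 / 8) := by
    have := scaleN_le x
    rw [hcast]; linarith
  have h2 : ‖x'‖ ≤ n * (1 / 8) := by
    have := scaleN_le x'
    rw [hcast]; linarith
  have h3 : ‖x + x'‖ ≤ n * (1 / 8) := by
    have := scaleN_le (x + x')
    rw [hcast]; linarith
  rw [H.T_eq hdim _ hn0 h1, H.T_eq hdim _ hn0 h2, H.T_eq hdim _ hn0 h3, smul_add (n : ℝ)⁻¹ x x',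
    H.G_add hdim (small_of_scale hn0 h1) (small_of_scale hn0 h2) (by
      rw [← smul_add]; exact small_of_scale hn0 h3), smul_add]

theorem FinalHyp0.T_norm (H : FinalHyp0 f) (x : X) : ‖Tmap f x‖ = ‖x‖ := by
  have hn0 : (0 : ℝ) < (scaleN x : ℝ) := by exact_mod_cast scaleN_pos x
  have hs := small_of_scale (scaleN_pos x) (scaleN_le x)
  rw [Tmap, norm_smul, H.G_norm (by linarith), norm_smul, norm_inv,
    Real.norm_of_nonneg hn0.le, ← mul_assoc, mul_inv_cancel₀ hn0.ne', one_mul]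

theorem FinalHyp0.T_small (H : FinalHyp0 f) (hdim : 3 ≤ Module.finrank ℝ X) {u : X}
    (hu : ‖u‖ ≤ 1 / 8) : Tmap f u = Gmap f u := by
  rw [H.T_eq hdim u one_pos (by simpa using hu)]
  simp

/-- `f` agrees with the extension on the sphere. -/
theorem FinalHyp0.T_sphere (H : FinalHyp0 f) (hdim : 3 ≤ Module.finrank ℝ X) {x : X} (hx : ‖x‖ = 1) :
    Tmap f x = f x := by
  have hrank : 1 < Module.rank ℝ X := by
    rw [← Module.finrank_eq_rank]
    exact_mod_cast (by omega : 1 < Module.finrank ℝ X)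
  have hconn : IsConnected (sphere (0 : X) 1) := isConnected_sphere hrank 0 zero_le_one
  have hcs : ConnectedSpace (sphere (0 : X) 1) := isConnected_iff_connectedSpace.1 hconn
  have hn1 : ∀ z : sphere (0 : X) 1, ‖(z : X)‖ = 1 := fun z => by simp
  let TT : X →+ Y := AddMonoidHom.mk' (Tmap f) (H.T_add hdim)
  have hTT : ∀ z, TT z = Tmap f z := fun _ => rfl
  have hloc : IsLocallyConstant (fun z : sphere (0 : X) 1 => f z - TT z) := by
    rw [IsLocallyConstant.iff_eventually_eq]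
    intro z
    have hpos : (0 : ℝ) < 1 / 8 := by norm_num
    filter_upwards [Metric.ball_mem_nhds z hpos] with y hy
    have hy' : ‖(y : X) - z‖ ≤ 1 / 8 := by
      have : dist y z < 1 / 8 := hy
      rw [Subtype.dist_eq, dist_eq_norm] at this
      exact this.le
    have h1 := H.G_sub (hn1 y) (hn1 z) (by linarith)
    rw [← H.T_small hdim hy', ← hTT, map_sub] at h1
    show f y - TT y = f z - TT z
    rw [sub_eq_sub_iff_sub_eq_sub, h1]
  set x' : sphere (0 : X) 1 := ⟨x, by simpa using hx⟩ with hx'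
  have h1 := hloc.apply_eq_of_preconnectedSpace x' (-x')
  have h2 : f (x : X) - TT x = f (-x) - TT (-x) := h1
  rw [H.hodd _ hx, map_neg] at h2
  have h3 : f x - TT x = 0 := by
    have h4 : -f x - -TT x = -(f x - TT x) := by abel
    rw [h4] at h2
    have h5 : (2 : ℝ) • (f x - TT x) = 0 := by
      rw [two_smul]
      nth_rewrite 1 [h2]
      abel
    rcases smul_eq_zero.1 h5 with h6 | h6
    · norm_num at h6
    · exact h6
  rw [← hTT]
  exact (sub_eq_zero.1 h3).symm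


/-- The final statement: a linear isometry into `Y` agreeing with `f` on the unit sphere. -/
theorem FinalHyp0.exists_linearIsometry (H : FinalHyp0 f) (hdim : 3 ≤ Module.finrank ℝ X) :
    ∃ T : X →ₗᵢ[ℝ] Y, ∀ x, ‖x‖ = 1 → T x = f x := by
  let TT : X →+ Y := AddMonoidHom.mk' (Tmap f) (H.T_add hdim)
  have hnorm : ∀ x, ‖TT x‖ = ‖x‖ := H.T_norm
  have hiso : Isometry TT := AddMonoidHomClass.isometry_of_norm _ hnorm
  set L : X →L[ℝ] Y := TT.toRealLinearMap hiso.continuous with hL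
  have hLapp : ∀ x, L x = Tmap f x := fun x => rfl
  refine ⟨⟨L.toLinearMap, fun x => hnorm x⟩, fun x hx => ?_⟩
  show L x = f x
  rw [hLapp, H.T_sphere hdim hx]

end Ext

end Vale.Agent.Lib.P084.RNP
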