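/-
Theorem 3 of the RNP line: a map of the unit sphere of a finite-dimensional space of dimension at
least four into a normed space which is isometric, odd and additive on unit triples is the
restriction of a linear isometry.  No surjectivity, no affinity on segments of the sphere.
-/
import Mathlib
import Vale.Agent.Lib.P084.NS.KConst
import Vale.Agent.Lib.P084.RNP.EvenConst
import Vale.Agent.Lib.P084.RNP.BUEw
import Vale.Agent.Lib.P084.RNP.FinalNS

namespace Vale.Agent.Lib.P084.RNP

open Vale.Agent.Lib.P084.NS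
open Vale.Agent.Lib.P084.Dim4
open Metric Set Filter Topology

variable {X Y : Type*} [NormedAddCommGroup X] [NormedSpace ℝ X] [NormedAddCommGroup Y]
  [NormedSpace ℝ Y]

/-- Constancy of `f s + f (w - s)` on `Ew w` for `0 < ‖w‖ < 1`, from additivity on unit triples. -/
theorem K_const_small_noaff [FiniteDimensional ℝ X] (hdim : 4 ≤ Module.finrank ℝ X) {f : X → Y}
    (hiso : ∀ x x' : X, ‖x‖ = 1 → ‖x'‖ = 1 → ‖f x - f x'‖ = ‖x - x'‖)
    (hadd : ∀ x y : X, ‖x‖ = 1 → ‖y‖ = 1 → ‖x + y‖ = 1 → f (x + y) = f x + f y)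
    {w : X} (hw : w ≠ 0) (hw1 : ‖w‖ < 1) {s t : X} (hs : s ∈ Ew w) (ht : t ∈ Ew w) :
    f s + f (w - s) = f t + f (w - t) := by
  by_contra hne
  obtain ⟨l, -, hl⟩ := exists_dual_vector'' ℝ (f s + f (w - s) - (f t + f (w - t)))
  have hgc : ContinuousOn f {a | ‖a‖ = 1} := by
    rw [Metric.continuousOn_iff]
    intro a ha ε hε
    refine ⟨ε, hε, fun b hb hab => ?_⟩
    rw [dist_eq_norm, hiso b a hb ha, ← dist_eq_norm]
    exact hab
  have hcont : ContinuousOn (fun x => l (f x + f (w - x))) (Ew w) :=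
    l.continuous.comp_continuousOn ((hgc.mono fun a ha => ha.1).add
      (hgc.comp (continuous_const.sub continuous_id).continuousOn fun a ha => (Ew_rho ha).1))
  have hw2 : ‖w‖ < 2 := by linarith
  have hcomp : CompactSpace (Ew w) := isCompact_iff_compactSpace.1 (isCompact_Ew w)
  have hconn : ConnectedSpace (Ew w) :=
    isConnected_iff_connectedSpace.1 (isConnected_eq (by omega) hw hw2)
  have hh : Continuous fun z : Ew w => l (f z + f (w - z)) :=
    continuousOn_iff_continuous_domRestrict.1 hcont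
  have key := even_const' (Z := Ew w) (ρ := rho w) (d := fun a b => ‖(a : X) - b‖)
    (Continuous.subtype_mk (continuous_const.sub continuous_subtype_val) _)
    (fun z => Subtype.ext (sub_sub_cancel w (z : X)))
    (fun Ξ hc h0 hodd => no_odd_Ew hdim hw hw2 Ξ hc h0 hodd)
    (fun v => ((continuous_subtype_val).sub continuous_const).norm)
    (fun a => by simp)
    (fun v => by
      show 1 < ‖(w - (v : X)) - v‖
      have e : (w - (v : X)) - v = w - ((v : X) + v) := by abel
      have h2 : ‖(v : X) + v‖ = 2 := by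
        rw [← two_smul ℝ (v : X), norm_smul, v.2.1]
        norm_num
      have h3 := norm_sub_norm_le ((v : X) + v) w
      rw [e, norm_sub_rev]
      linarith)
    hh
    (fun z => by
      show l (f (w - z) + f (w - (w - z))) = l (f z + f (w - z))
      rw [sub_sub_cancel, add_comm])
    (fun a b hab => by
      show l (f a + f (w - a)) = l (f b + f (w - b))
      rw [rel_unit_ns hadd a.2 b.2 hab])
    ⟨s, hs⟩ ⟨t, ht⟩
  have heq : l (f s + f (w - s)) = l (f t + f (w - t)) := key
  have h0 : f s + f (w - s) - (f t + f (w - t)) ≠ 0 := sub_ne_zero.2 hne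
  have h1 : l (f s + f (w - s) - (f t + f (w - t))) = 0 := by
    rw [map_sub]
    exact sub_eq_zero.2 heq
  rw [hl] at h1
  exact h0 (by exact_mod_cast norm_eq_zero.1 (by exact_mod_cast h1))

/-- The hypotheses of the final step hold. -/
theorem finalHyp0_of_add [FiniteDimensional ℝ X] (hdim : 4 ≤ Module.finrank ℝ X) {f : X → Y}
    (hnorm : ∀ x : X, ‖x‖ = 1 → ‖f x‖ = 1)
    (hiso : ∀ x x' : X, ‖x‖ = 1 → ‖x'‖ = 1 → ‖f x - f x'‖ = ‖x - x'‖)
    (hodd : ∀ x : X, ‖x‖ = 1 → f (-x) = - f x)
    (hadd : ∀ x y : X, ‖x‖ = 1 → ‖y‖ = 1 → ‖x + y‖ = 1 → f (x + y) = f x + f y) :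
    FinalHyp0 f := by
  refine ⟨hnorm, hiso, hodd, ?_, ?_⟩
  · intro w hw hw2
    have h := isConnected_eq (by omega : 3 ≤ Module.finrank ℝ X) hw hw2
    exact ⟨h.nonempty, h.isPreconnected⟩
  · intro w hw hw1 s hs t ht
    exact K_const_small_noaff hdim hiso hadd hw hw1 hs ht

/-- **Theorem 3.**  `X` finite-dimensional of dimension at least four, `f` isometric from the unit
sphere of `X` into the unit sphere of `Y`, odd and additive on unit triples: then `f` is the
restriction of a linear isometry of `X` into `Y`.  No surjectivity and no affinity on segments. -/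
theorem exists_linearIsometry_of_add [FiniteDimensional ℝ X] (hdim : 4 ≤ Module.finrank ℝ X)
    {f : X → Y} (hnorm : ∀ x : X, ‖x‖ = 1 → ‖f x‖ = 1)
    (hiso : ∀ x x' : X, ‖x‖ = 1 → ‖x'‖ = 1 → ‖f x - f x'‖ = ‖x - x'‖)
    (hodd : ∀ x : X, ‖x‖ = 1 → f (-x) = - f x)
    (hadd : ∀ x y : X, ‖x‖ = 1 → ‖y‖ = 1 → ‖x + y‖ = 1 → f (x + y) = f x + f y) :
    ∃ T : X →ₗᵢ[ℝ] Y, ∀ x, ‖x‖ = 1 → T x = f x :=
  (finalHyp0_of_add hdim hnorm hiso hodd hadd).exists_linearIsometry (by omega)

end Vale.Agent.Lib.P084.RNP
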