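import Mathlib

/-! Bounded sets in reflexive spaces are dentable (Namioka-Phelps argument): a minimal weakly compact
norming subset, Baire category on it, and a slice of small diameter. -/

set_option linter.unusedSectionVars false

namespace Vale.Agent.Lib.P084.RNP

open Metric Set Filter Topology

section Abstract

variable {E : Type*} [AddCommGroup E] [Module ℝ E] [TopologicalSpace E] [IsTopologicalAddGroup E]
  [ContinuousSMul ℝ E] [LocallyConvexSpace ℝ E] [T2Space E]

/-- `F` is a closed subset of `K` on which every continuous functional attains its maximum over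
`K`. -/
def Norming (K F : Set E) : Prop :=
  IsClosed F ∧ F ⊆ K ∧ ∀ ψ : StrongDual ℝ E, ∃ y ∈ F, ∀ z ∈ K, ψ z ≤ ψ y

lemma norming_self {K : Set E} (hK : IsCompact K) (hne : K.Nonempty) : Norming K K := by
  refine ⟨hK.isClosed, Subset.rfl, fun ψ => ?_⟩
  obtain ⟨y, hy, hmax⟩ := hK.exists_isMaxOn hne ψ.continuous.continuousOn
  exact ⟨y, hy, fun z hz => hmax hz⟩

lemma exists_minimal_norming {K : Set E} (hK : IsCompact K) (hne : K.Nonempty) :
    ∃ F, Minimal (Norming K) F := by
  obtain ⟨F, -, hF⟩ := zorn_superset_nonempty {F | Norming K F} (by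
    intro c hc hchain hcne
    obtain ⟨s₀, hs₀⟩ := hcne
    refine ⟨⋂₀ c, ⟨isClosed_sInter fun s hs => (hc hs).1, ?_, fun ψ => ?_⟩,
      fun s hs => sInter_subset_of_mem hs⟩
    · exact (sInter_subset_of_mem hs₀).trans (hc hs₀).2.1
    set G : Set E := {y | ∀ z ∈ K, ψ z ≤ ψ y} with hG
    have hGc : IsClosed G := by
      have : G = ⋂ z ∈ K, {y | ψ z ≤ ψ y} := by
        ext y
        simp [hG]
      rw [this]
      exact isClosed_biInter fun z _ => isClosed_le continuous_const ψ.continuous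
    have : Nonempty c := ⟨⟨s₀, hs₀⟩⟩
    have key := IsCompact.nonempty_iInter_of_directed_nonempty_isCompact_isClosed
      (fun s : c => (s : Set E) ∩ G) (by
        intro a b
        rcases hchain.total a.2 b.2 with h | h
        · exact ⟨a, Subset.rfl, inter_subset_inter_left _ h⟩
        · exact ⟨b, inter_subset_inter_left _ h, Subset.rfl⟩)
      (by
        intro s
        obtain ⟨y, hy, hm⟩ := (hc s.2).2.2 ψ
        exact ⟨y, hy, hm⟩)
      (by
        intro s
        exact (hK.of_isClosed_subset (hc s.2).1 (hc s.2).2.1).inter_right hGc)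
      (by
        intro s
        exact (hc s.2).1.inter hGc)
    obtain ⟨y, hy⟩ := key
    have hy' := mem_iInter.1 hy
    refine ⟨y, ?_, (hy' ⟨s₀, hs₀⟩).2⟩
    intro s hs
    exact (hy' ⟨s, hs⟩).1) K (norming_self hK hne)
  exact ⟨F, hF⟩

lemma subset_of_norming {K F J : Set E} (hF : Norming K F) (hJc : Convex ℝ J) (hJ : IsClosed J)
    (hFJ : F ⊆ J) : K ⊆ J := by
  intro z hz
  by_contra hzJ
  obtain ⟨ψ, u, h1, h2⟩ := geometric_hahn_banach_closed_point hJc hJ hzJ
  obtain ⟨y, hy, hm⟩ := hF.2.2 ψ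
  have h3 := h1 y (hFJ hy)
  have h4 := hm z hz
  linarith

lemma isClosed_convexJoin {A B : Set E} (hA : IsCompact A) (hB : IsCompact B) :
    IsClosed (convexJoin ℝ A B) := by
  have hc : IsCompact ((fun p : E × E × ℝ => (1 - p.2.2) • p.1 + p.2.2 • p.2.1) ''
      (A ×ˢ B ×ˢ Icc (0 : ℝ) 1)) :=
    (hA.prod (hB.prod isCompact_Icc)).image (by fun_prop)
  have e : convexJoin ℝ A B = (fun p : E × E × ℝ => (1 - p.2.2) • p.1 + p.2.2 • p.2.1) ''
      (A ×ˢ B ×ˢ Icc (0 : ℝ) 1) := by
    ext x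
    rw [mem_convexJoin]
    constructor
    · rintro ⟨a, ha, b, hb, hx⟩
      rw [segment_eq_image] at hx
      obtain ⟨θ, hθ, rfl⟩ := hx
      exact ⟨(a, b, θ), ⟨ha, hb, hθ⟩, rfl⟩
    · rintro ⟨⟨a, b, θ⟩, ⟨ha, hb, hθ⟩, rfl⟩
      refine ⟨a, ha, b, hb, ?_⟩
      rw [segment_eq_image]
      exact ⟨θ, hθ, rfl⟩
  rw [e]
  exact hc.isClosed

/-- The abstract slice: a compact convex set covered by countably many closed convex sets has, for
one of them, a slice consisting of points close to that set. -/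
theorem exists_slice {K : Set E} (hK : IsCompact K) (hKc : Convex ℝ K) (hne : K.Nonempty)
    {ι : Type*} [Countable ι] (B : ι → Set E) (hBcl : ∀ i, IsClosed (B i))
    (hBc : ∀ i, Convex ℝ (B i)) (hcov : K ⊆ ⋃ i, B i) :
    ∃ (i : ι) (φ : StrongDual ℝ E) (M m : ℝ), m < M ∧ (∃ y ∈ K, φ y = M) ∧ (∀ z ∈ K, φ z ≤ M) ∧
      ∀ z ∈ K, ∃ b ∈ K ∩ B i, ∃ a ∈ K, ∃ s : ℝ, 0 ≤ s ∧ s ≤ 1 ∧ z = (1 - s) • b + s • a ∧
        s * (M - m) ≤ M - φ z := by
  classical
  obtain ⟨F, hF⟩ := exists_minimal_norming hK hne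
  have hFn : Norming K F := hF.prop
  have hFcompact : IsCompact F := hK.of_isClosed_subset hFn.1 hFn.2.1
  have hFne : F.Nonempty := by
    obtain ⟨y, hy, -⟩ := hFn.2.2 0
    exact ⟨y, hy⟩
  have : CompactSpace F := isCompact_iff_compactSpace.1 hFcompact
  have : Nonempty F := hFne.to_subtype
  obtain ⟨i, hi⟩ := nonempty_interior_of_iUnion_of_closed
    (f := fun i => ((↑) : F → E) ⁻¹' B i) (fun i => (hBcl i).preimage continuous_subtype_val) (by
      ext ⟨y, hy⟩
      simp only [mem_iUnion, mem_preimage, mem_univ, iff_true]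
      exact mem_iUnion.1 (hcov (hFn.2.1 hy)))
  obtain ⟨⟨y₀, hy₀F⟩, hy₀⟩ := hi
  have hUo : IsOpen (interior (((↑) : F → E) ⁻¹' B i)) := isOpen_interior
  obtain ⟨V, hVo, hV⟩ := isOpen_induced_iff.1 hUo
  have hV' : ∀ y ∈ F, y ∈ V → y ∈ B i := by
    intro y hy hyV
    have h1 : (⟨y, hy⟩ : F) ∈ interior (((↑) : F → E) ⁻¹' B i) := by
      rw [← hV]
      exact hyV
    have h2 := interior_subset h1
    exact h2
  have hy₀V : y₀ ∈ V := by
    have h1 : (⟨y₀, hy₀F⟩ : F) ∈ (((↑) : F → E) ⁻¹' V) := by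
      rw [hV]
      exact hy₀
    exact h1
  have hK2c : IsCompact (K ∩ B i) := hK.inter_right (hBcl i)
  have hK2conv : Convex ℝ (K ∩ B i) := hKc.inter (hBc i)
  have hy₀K2 : y₀ ∈ K ∩ B i := ⟨hFn.2.1 hy₀F, hV' y₀ hy₀F hy₀V⟩
  have hF'cl : IsClosed (F \ V) := hFn.1.sdiff hVo
  by_cases hF'e : (F \ V).Nonempty
  · have hnot : ¬ Norming K (F \ V) := by
      intro hn
      have hle : F ⊆ F \ V := hF.le_of_le hn sdiff_subset
      exact (hle hy₀F).2 hy₀V
    have hex : ∃ φ : StrongDual ℝ E, ¬ ∃ y ∈ F \ V, ∀ z ∈ K, φ z ≤ φ y := by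
      by_contra hcon
      push Not at hcon
      exact hnot ⟨hF'cl, sdiff_subset.trans hFn.2.1, hcon⟩
    obtain ⟨φ, hφ⟩ := hex
    push Not at hφ
    obtain ⟨yM, hyM, hmaxM⟩ := hK.exists_isMaxOn hne φ.continuous.continuousOn
    have hF'compact : IsCompact (F \ V) := hFcompact.of_isClosed_subset hF'cl sdiff_subset
    obtain ⟨ym, hym, hmaxm⟩ := hF'compact.exists_isMaxOn hF'e φ.continuous.continuousOn
    have hmM : φ ym < φ yM := by
      obtain ⟨z, hz, hlt⟩ := hφ ym hym
      exact lt_of_lt_of_le hlt (hmaxM hz)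
    have hle : ∀ z ∈ K, φ z ≤ φ yM := fun z hz => hmaxM hz
    have hK1cl : IsClosed {y | φ y ≤ φ ym} := isClosed_le φ.continuous continuous_const
    have hK1c : IsCompact (K ∩ {y | φ y ≤ φ ym}) := hK.inter_right hK1cl
    have hK1conv : Convex ℝ (K ∩ {y | φ y ≤ φ ym}) := by
      apply hKc.inter
      intro a ha b hb p q hp hq hpq
      simp only [mem_ofPred_eq, map_add, map_smul, smul_eq_mul] at ha hb ⊢
      have h1 := mul_le_mul_of_nonneg_left ha hp
      have h2 := mul_le_mul_of_nonneg_left hb hq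
      have e : φ ym = p * φ ym + q * φ ym := by rw [← add_mul, hpq, one_mul]
      linarith
    have hymK1 : ym ∈ K ∩ {y | φ y ≤ φ ym} :=
      ⟨hFn.2.1 hym.1, by simp only [mem_ofPred_eq]; exact le_refl _⟩
    have hJ : K ⊆ convexJoin ℝ (K ∩ {y | φ y ≤ φ ym}) (K ∩ B i) := by
      apply subset_of_norming hFn (hK1conv.convexJoin hK2conv) (isClosed_convexJoin hK1c hK2c)
      intro y hy
      rw [mem_convexJoin]
      by_cases hyV : y ∈ V
      · exact ⟨ym, hymK1, y, ⟨hFn.2.1 hy, hV' y hy hyV⟩, right_mem_segment ℝ ym y⟩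
      · have h1 : y ∈ F \ V := ⟨hy, hyV⟩
        exact ⟨y, ⟨hFn.2.1 hy, hmaxm h1⟩, y₀, hy₀K2, left_mem_segment ℝ y y₀⟩
    refine ⟨i, φ, φ yM, φ ym, hmM, ⟨yM, hyM, rfl⟩, hle, fun z hz => ?_⟩
    obtain ⟨a, ha, b, hb, p, q, hp, hq, hpq, rfl⟩ := mem_convexJoin.1 (hJ hz)
    have hqe : q = 1 - p := by linarith
    subst hqe
    refine ⟨b, hb, a, ha.1, p, hp, by linarith, by rw [add_comm], ?_⟩
    have h1 : φ a ≤ φ ym := ha.2
    have h2 : φ b ≤ φ yM := hle b hb.1
    simp only [map_add, map_smul, smul_eq_mul]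
    nlinarith
  · have hsub : F ⊆ K ∩ B i := by
      intro y hy
      refine ⟨hFn.2.1 hy, hV' y hy ?_⟩
      by_contra hyV
      exact hF'e ⟨y, hy, hyV⟩
    have hall : K ⊆ K ∩ B i := subset_of_norming hFn hK2conv hK2c.isClosed hsub
    obtain ⟨yy, hyy⟩ := hne
    refine ⟨i, 0, 0, -1, by norm_num, ⟨yy, hyy, by simp⟩, by simp, fun z hz => ?_⟩
    refine ⟨z, hall hz, z, hz, 0, le_refl _, by norm_num, by simp, by simp⟩

end Abstract

section Metric

variable {X : Type*} [NormedAddCommGroup X] [NormedSpace ℝ X]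

/-- A bush contains a countable bush through any of its points. -/
lemma exists_countable_bush {A : Set X} {ε : ℝ} {x₀ : X} (hx₀ : x₀ ∈ A)
    (hb : ∀ x ∈ A, x ∈ closure (convexHull ℝ (A \ ball x ε))) :
    ∃ A' : Set X, A'.Countable ∧ A' ⊆ A ∧ x₀ ∈ A' ∧
      ∀ x ∈ A', x ∈ closure (convexHull ℝ (A' \ ball x ε)) := by
  classical
  have hC : ∀ x : X, ∃ C : Set X, C.Countable ∧ C ⊆ A \ ball x ε ∧
      (x ∈ A → x ∈ closure (convexHull ℝ C)) := by
    intro x
    by_cases hx : x ∈ A
    · obtain ⟨u, hu, hlim⟩ := mem_closure_iff_seq_limit.1 (hb x hx)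
      have hfin : ∀ n, ∃ t : Finset X, (t : Set X) ⊆ A \ ball x ε ∧ u n ∈ convexHull ℝ (t : Set X) := by
        intro n
        have := hu n
        rw [convexHull_eq_union_convexHull_finite_subsets] at this
        simp only [mem_iUnion] at this
        obtain ⟨t, ht, h⟩ := this
        exact ⟨t, ht, h⟩
      choose t ht1 ht2 using hfin
      refine ⟨⋃ n, (t n : Set X), countable_iUnion fun n => (t n).countable_toSet,
        iUnion_subset ht1, fun _ => ?_⟩
      exact mem_closure_of_tendsto hlim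
        (Eventually.of_forall fun n => convexHull_mono (subset_iUnion (fun n => (t n : Set X)) n) (ht2 n))
    · exact ⟨∅, countable_empty, empty_subset _, fun h => absurd h hx⟩
  choose C hC1 hC2 hC3 using hC
  set B : ℕ → Set X := fun n => Nat.rec {x₀} (fun _ S => S ∪ ⋃ x ∈ S, C x) n with hB
  have hB0 : B 0 = {x₀} := rfl
  have hBs : ∀ n, B (n + 1) = B n ∪ ⋃ x ∈ B n, C x := fun n => rfl
  have hBc : ∀ n, (B n).Countable := by
    intro n
    induction n with
    | zero =>
      rw [hB0]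
      exact countable_singleton _
    | succ n ih =>
      rw [hBs]
      exact ih.union (ih.biUnion fun x _ => hC1 x)
  have hBA : ∀ n, B n ⊆ A := by
    intro n
    induction n with
    | zero =>
      rw [hB0]
      exact singleton_subset_iff.2 hx₀
    | succ n ih =>
      rw [hBs]
      refine union_subset ih (iUnion₂_subset fun x _ => ?_)
      exact (hC2 x).trans sdiff_subset
  refine ⟨⋃ n, B n, countable_iUnion hBc, iUnion_subset hBA, mem_iUnion.2 ⟨0, by rw [hB0]; rfl⟩, ?_⟩
  intro x hx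
  obtain ⟨n, hn⟩ := mem_iUnion.1 hx
  have h1 : C x ⊆ (⋃ n, B n) \ ball x ε := by
    intro y hy
    refine ⟨mem_iUnion.2 ⟨n + 1, ?_⟩, ((hC2 x) hy).2⟩
    rw [hBs]
    exact Or.inr (mem_iUnion₂.2 ⟨x, hn, hy⟩)
  exact closure_mono (convexHull_mono h1) (hC3 x (hBA n hn))

lemma isClosed_weak_image {s : Set X} (hs : Convex ℝ s) (hc : IsClosed s) :
    IsClosed (toWeakSpace ℝ X '' s) := by
  have h := hs.toWeakSpace_closure ℝ
  rw [hc.closure_eq] at h
  rw [h]
  exact isClosed_closure

/-- Bounded sets are dentable, when closed balls are weakly compact. -/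
theorem dentable_of_weakly_compact
    (hcomp : ∀ R : ℝ, IsCompact (toWeakSpace ℝ X '' closedBall (0 : X) R)) {A : Set X}
    (hne : A.Nonempty) (hbd : Bornology.IsBounded A) {ε : ℝ} (hε : 0 < ε) :
    ∃ x ∈ A, x ∉ closure (convexHull ℝ (A \ ball x ε)) := by
  classical
  by_contra hcon
  push Not at hcon
  obtain ⟨x₀, hx₀⟩ := hne
  obtain ⟨A', hA'c, hA'A, hx₀', hbush⟩ := exists_countable_bush hx₀ hcon
  obtain ⟨R, hR⟩ := (Metric.isBounded_iff_subset_closedBall (0 : X)).1 hbd
  have hR0 : 0 ≤ R := by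
    have := hR hx₀
    rw [mem_closedBall_zero_iff] at this
    exact (norm_nonneg _).trans this
  set K₀ : Set X := closure (convexHull ℝ A') with hK₀
  have hK₀conv : Convex ℝ K₀ := (convex_convexHull ℝ A').closure
  have hK₀cl : IsClosed K₀ := isClosed_closure
  have hK₀R : K₀ ⊆ closedBall 0 R :=
    closure_minimal (convexHull_min (hA'A.trans hR) (convex_closedBall 0 R)) isClosed_closedBall
  have hA'K : A' ⊆ K₀ := (subset_convexHull ℝ A').trans subset_closure
  -- the weak picture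
  have : LocallyConvexSpace ℝ (WeakSpace ℝ X) :=
    inferInstanceAs (LocallyConvexSpace ℝ (WeakBilin (topDualPairing ℝ X).flip))
  set T := toWeakSpace ℝ X with hT
  have hKcl : IsClosed (T '' K₀) := isClosed_weak_image hK₀conv hK₀cl
  have hKc : IsCompact (T '' K₀) := (hcomp R).of_isClosed_subset hKcl (image_mono hK₀R)
  have hKconv : Convex ℝ (T '' K₀) := hK₀conv.linear_image T.toLinearMap
  have hKne : (T '' K₀).Nonempty := ⟨T x₀, x₀, hA'K hx₀', rfl⟩
  -- separability
  have hsep : TopologicalSpace.IsSeparable K₀ := by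
    have h1 : TopologicalSpace.IsSeparable (Submodule.span ℝ A' : Set X) :=
      hA'c.isSeparable.span
    have h2 : convexHull ℝ A' ⊆ (Submodule.span ℝ A' : Set X) :=
      convexHull_min Submodule.subset_span (Submodule.convex _)
    exact h1.closure.mono (closure_mono h2)
  obtain ⟨c, hc, hcK⟩ := hsep
  have hccount : Countable c := hc.to_subtype
  set r : ℝ := ε / 8 with hr
  have hr0 : 0 < r := by positivity
  obtain ⟨i, φ, M, m, hmM, ⟨yM, hyM, hφM⟩, hle, hdec⟩ := exists_slice hKc hKconv hKne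
    (fun y : c => T '' closedBall (y : X) r)
    (fun y => isClosed_weak_image (convex_closedBall _ _) isClosed_closedBall)
    (fun y => (convex_closedBall _ _).linear_image T.toLinearMap)
    (by
      rintro _ ⟨z, hz, rfl⟩
      obtain ⟨y, hy, hd⟩ := Metric.mem_closure_iff.1 (hcK hz) r hr0
      refine mem_iUnion.2 ⟨⟨y, hy⟩, z, ?_, rfl⟩
      rw [mem_closedBall]
      exact hd.le)
  set ψ : X →L[ℝ] ℝ := φ.comp (toWeakSpaceCLM ℝ X) with hψ
  have hψa : ∀ x, ψ x = φ (T x) := fun x => rfl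
  have hMm : 0 < M - m := by linarith
  set t : ℝ := r * (M - m) / (2 * R + 1) with ht
  have hd0 : 0 < 2 * R + 1 := by linarith
  have ht0 : 0 < t := by positivity
  -- the slice is close to the centre
  have hclose : ∀ z ∈ K₀, M - t < ψ z → dist z (i : X) ≤ 2 * r := by
    intro z hz hzt
    obtain ⟨b', ⟨hb'K, hb'B⟩, a', ha'K, s, hs0, hs1, hzeq, hsM⟩ := hdec (T z) ⟨z, hz, rfl⟩
    obtain ⟨b, hbK, rfl⟩ := hb'K
    obtain ⟨a, haK, rfl⟩ := ha'K
    obtain ⟨b₁, hb₁, hb₁e⟩ := hb'B
    have hb₁b : b₁ = b := T.injective hb₁e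
    subst hb₁b
    have hzeq' : z = (1 - s) • b₁ + s • a := by
      apply T.injective
      rw [hzeq, map_add, map_smul, map_smul]
    have hst : s * (M - m) < t := by
      have h1 : M - φ (T z) < t := by
        rw [← hψa]
        linarith
      linarith
    have hab : ‖a - b₁‖ ≤ 2 * R := by
      have h1 := hK₀R haK
      have h2 := hK₀R hbK
      rw [mem_closedBall_zero_iff] at h1 h2
      calc ‖a - b₁‖ ≤ ‖a‖ + ‖b₁‖ := norm_sub_le _ _
        _ ≤ 2 * R := by linarith
    have hzb : dist z b₁ ≤ r := by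
      have e : z - b₁ = s • (a - b₁) := by
        rw [hzeq']
        module
      rw [dist_eq_norm, e, norm_smul, Real.norm_of_nonneg hs0]
      have h3 : s * (2 * R + 1) ≤ r := by
        have h4 : s * (M - m) < r * (M - m) / (2 * R + 1) := hst
        rw [lt_div_iff₀ hd0] at h4
        have h5 : s * (2 * R + 1) * (M - m) < r * (M - m) := by nlinarith
        exact (lt_of_mul_lt_mul_right h5 hMm.le).le
      have h6 : s * ‖a - b₁‖ ≤ s * (2 * R) := mul_le_mul_of_nonneg_left hab hs0
      nlinarith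
    have hbc : dist b₁ (i : X) ≤ r := hb₁
    calc dist z (i : X) ≤ dist z b₁ + dist b₁ (i : X) := dist_triangle _ _ _
      _ ≤ 2 * r := by linarith
  -- a point of the countable bush in the slice
  have hclosedH : IsClosed {y : X | ψ y ≤ M - t} := isClosed_le ψ.continuous continuous_const
  have hconvH : Convex ℝ {y : X | ψ y ≤ M - t} := by
    intro a ha b hb p q hp hq hpq
    simp only [mem_ofPred_eq, map_add, map_smul, smul_eq_mul] at ha hb ⊢
    have h1 := mul_le_mul_of_nonneg_left ha hp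
    have h2 := mul_le_mul_of_nonneg_left hb hq
    have e : M - t = p * (M - t) + q * (M - t) := by rw [← add_mul, hpq, one_mul]
    linarith
  have hex : ∃ x ∈ A', M - t < ψ x := by
    by_contra hno
    push Not at hno
    have hall : K₀ ⊆ {y : X | ψ y ≤ M - t} :=
      closure_minimal (convexHull_min hno hconvH) hclosedH
    obtain ⟨y, hy, rfl⟩ := hyM
    have h1 := hall hy
    have h2 : ψ y = M := hφM
    simp only [mem_ofPred_eq, h2] at h1
    linarith
  obtain ⟨x, hxA', hxt⟩ := hex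
  have hsubH : A' \ ball x ε ⊆ {y : X | ψ y ≤ M - t} := by
    rintro u ⟨huA', hub⟩
    by_contra hu
    have hu' : M - t < ψ u := not_le.1 hu
    apply hub
    have h1 := hclose u (hA'K huA') hu'
    have h2 := hclose x (hA'K hxA') hxt
    rw [mem_ball]
    calc dist u x ≤ dist u (i : X) + dist x (i : X) := dist_triangle_right _ _ _
      _ ≤ 4 * r := by linarith
      _ < ε := by rw [hr]; linarith
  have h3 : closure (convexHull ℝ (A' \ ball x ε)) ⊆ {y : X | ψ y ≤ M - t} :=
    closure_minimal (convexHull_min hsubH hconvH) hclosedH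
  have h4 := h3 (hbush x hxA')
  simp only [mem_ofPred_eq] at h4
  linarith

/-- In a reflexive space the closed balls are weakly compact. -/
theorem isCompact_weak_closedBall
    (hrefl : Function.Surjective (NormedSpace.inclusionInDoubleDual ℝ X)) (R : ℝ) :
    IsCompact (toWeakSpace ℝ X '' closedBall (0 : X) R) := by
  rw [(NormedSpace.isEmbedding_inclusionInDoubleDualWeak ℝ X).isCompact_iff]
  have hnorm : ∀ ξ' : StrongDual ℝ (StrongDual ℝ X),
      ξ' ∈ closedBall (0 : StrongDual ℝ (StrongDual ℝ X)) R ↔ ‖ξ'‖ ≤ R :=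
    fun ξ' => by
      rw [mem_closedBall]
      have h : dist ξ' (0 : StrongDual ℝ (StrongDual ℝ X)) = ‖ξ'‖ := dist_zero_right ξ'
      rw [h]
  have e : NormedSpace.inclusionInDoubleDualWeak ℝ X '' (toWeakSpace ℝ X '' closedBall (0 : X) R) =
      WeakDual.toStrongDual ⁻¹' closedBall (0 : StrongDual ℝ (StrongDual ℝ X)) R := by
    ext ξ
    constructor
    · rintro ⟨_, ⟨x, hx, rfl⟩, rfl⟩
      rw [mem_preimage, hnorm]
      rw [mem_closedBall_zero_iff] at hx
      have : ‖(NormedSpace.inclusionInDoubleDualLi (E := X) ℝ) x‖ = ‖x‖ :=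
        (NormedSpace.inclusionInDoubleDualLi (E := X) ℝ).norm_map x
      exact this.le.trans hx
    · intro hξ
      rw [mem_preimage, hnorm] at hξ
      obtain ⟨x, hx⟩ := hrefl (WeakDual.toStrongDual ξ)
      refine ⟨toWeakSpace ℝ X x, ⟨x, ?_, rfl⟩, ?_⟩
      · rw [mem_closedBall_zero_iff]
        have h1 : ‖(NormedSpace.inclusionInDoubleDualLi (E := X) ℝ) x‖ = ‖x‖ :=
          (NormedSpace.inclusionInDoubleDualLi (E := X) ℝ).norm_map x
        have h2 : ‖(NormedSpace.inclusionInDoubleDualLi (E := X) ℝ) x‖ = ‖WeakDual.toStrongDual ξ‖ := by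
          rw [← hx]
          rfl
        rw [← h1, h2]
        exact hξ
      · apply WeakDual.toStrongDual.injective
        rw [← hx]
        rfl
  rw [e]
  exact WeakDual.isCompact_closedBall (0 : StrongDual ℝ (StrongDual ℝ X)) R

/-- Every nonempty bounded subset of a reflexive normed space is dentable. -/
theorem dentable_of_reflexive
    (hrefl : Function.Surjective (NormedSpace.inclusionInDoubleDual ℝ X)) {A : Set X}
    (hne : A.Nonempty) (hbd : Bornology.IsBounded A) {ε : ℝ} (hε : 0 < ε) :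
    ∃ x ∈ A, x ∉ closure (convexHull ℝ (A \ ball x ε)) :=
  dentable_of_weakly_compact (isCompact_weak_closedBall hrefl) hne hbd hε

end Metric

end Vale.Agent.Lib.P084.RNP
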