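import Vale.Agent.Lib.P084.Inf.Dent
import Vale.Agent.Lib.P084.RNP.ReflexiveCore

/-! Every reflexive real normed space has all its bounded subsets dentable. -/

namespace Vale.Agent.Lib.P084.RNP

/-- Every nonempty bounded subset of a reflexive real normed space is dentable. -/
theorem allBoundedDentable_of_reflexive {X : Type*} [NormedAddCommGroup X] [NormedSpace ℝ X]
    (hrefl : Function.Surjective (NormedSpace.inclusionInDoubleDual ℝ X)) :
    Inf.AllBoundedDentable X :=
  fun _ hne hbd _ hε => dentable_of_reflexive hrefl hne hbd hε

end Vale.Agent.Lib.P084.RNP
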