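/-
Tingley's problem, the reduction to bushes.  Let `f` be a surjective isometry of the unit sphere of
`X` onto the unit sphere of `Y`, `X` of rank at least three.  Either `f` is the restriction of a
surjective linear isometry, or both `X` and `Y` are infinite dimensional, not strictly convex, and
both unit spheres contain `d`-bushes for the same `d > 0`: in particular they have non-dentable
subsets.  So `f` extends as soon as all subsets of one of the two spheres are dentable
(Radon-Nikodym property, by Rieffel, Maynard, Huff, Davis-Phelps).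
-/
import Vale.Agent.Lib.P084.RNP.Glue
import Vale.Agent.Lib.P084.RNP.Bush
import Vale.Agent.Lib.P084.RNP.KConst
import Vale.Agent.Lib.P084.RNP.ReflexiveDent
import Vale.Agent.Lib.P084.D3.Final
import Vale.Agent.Lib.P084.Dim3N.Wrap

namespace Vale.Agent.Lib.P084.RNP

open Vale.Agent.Lib.P084.UC Vale.Agent.Lib.P084.Inf
open Metric

universe u v

variable {X : Type u} {Y : Type v} [NormedAddCommGroup X] [NormedSpace ℝ X] [NormedAddCommGroup Y]
  [NormedSpace ℝ Y]

/-- Theorem 4 of the plan: additivity on unit triples suffices. -/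
theorem exists_linear_of_additive (hrank : (4 : Cardinal) ≤ Module.rank ℝ X) {f : X → Y}
    (hf : IsSphereIso f) (hodd : ∀ a : X, ‖a‖ = 1 → f (-a) = -f a)
    (hadd : ∀ x z : X, ‖x‖ = 1 → ‖z‖ = 1 → ‖x + z‖ = 1 → f (x + z) = f x + f z) :
    ∃ T : X ≃ₗᵢ[ℝ] Y, ∀ x, ‖x‖ = 1 → T x = f x := by
  refine linear_of_core hrank hf fun F hFd hF4 => ?_
  obtain ⟨hn, hi, ho, ha⟩ := core_hyp_of_subspace hf hodd hadd F
  obtain ⟨T, hT⟩ := exists_linearIsometry_of_add (X := F) hF4 hn hi ho ha
  exact ⟨T.toContinuousLinearMap, fun x => T.norm_map x, fun x hx => hT x hx⟩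

/-- The inverse of a sphere isometry is a sphere isometry. -/
theorem exists_isSphereIso_inv {f : X → Y} (hf : IsSphereIso f) :
    ∃ g : Y → X, IsSphereIso g ∧ (∀ x : X, ‖x‖ = 1 → g (f x) = x) ∧
      (∀ y : Y, ‖y‖ = 1 → f (g y) = y) := by
  obtain ⟨g, hg⟩ := hf.exists_inv
  have hgf : ∀ x : X, ‖x‖ = 1 → g (f x) = x := by
    intro x hx
    obtain ⟨h1, h2⟩ := hg (f x) (hf.norm_eq x hx)
    have h3 := hf.iso _ _ h1 hx
    rw [h2, sub_self, norm_zero] at h3
    exact sub_eq_zero.1 (norm_eq_zero.1 h3.symm)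
  refine ⟨g, ⟨fun y hy => (hg y hy).1, fun y y' hy hy' => ?_, fun x hx => ?_⟩, hgf,
    fun y hy => (hg y hy).2⟩
  · rw [← hf.iso _ _ (hg y hy).1 (hg y' hy').1, (hg y hy).2, (hg y' hy').2]
  · exact ⟨f x, hf.norm_eq x hx, hgf x hx⟩

/-- If `f` fails additivity on a unit triple at defect level `d` then both defect sets at level `d`
are bushes. -/
theorem bushes_of_not_additive {f : X → Y} (hf : IsSphereIso f)
    (hodd : ∀ a : X, ‖a‖ = 1 → f (-a) = -f a) {g : Y → X} (hg : IsSphereIso g)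
    (hgodd : ∀ a : Y, ‖a‖ = 1 → g (-a) = -g a) (hgf : ∀ x : X, ‖x‖ = 1 → g (f x) = x) {a b : X}
    (ha : ‖a‖ = 1) (hb : ‖b‖ = 1) (hab : ‖a + b‖ = 1) :
    IsBush (DefectSet f ‖f a + f b - f (a + b)‖) ‖f a + f b - f (a + b)‖ ∧
    IsBush (DefectSet g ‖f a + f b - f (a + b)‖) ‖f a + f b - f (a + b)‖ := by
  refine ⟨isBush_defect hf hodd (defect_nonempty_of_not_additive hf hodd ha hb hab),
    isBush_defect hg hgodd ?_⟩
  refine ⟨f a, hf.norm_eq a ha, f b, - f (a + b), hf.norm_eq b hb, by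
    rw [norm_neg]; exact hf.norm_eq _ hab, ?_, ?_⟩
  · have h1 : - f (a + b) = f (-(a + b)) := (hodd _ hab).symm
    rw [h1, hgf a ha, hgf b hb, hgf _ (by rw [norm_neg]; exact hab)]
    abel
  · rw [← sub_eq_add_neg]

/-- A normed space with a compact nonempty sphere is finite-dimensional (re-export). -/
theorem finiteDimensional_of_isSphereIso {f : X → Y} (hf : IsSphereIso f)
    [FiniteDimensional ℝ X] : FiniteDimensional ℝ Y := by
  have hcX : IsCompact (sphere (0 : X) 1) := isCompact_sphere 0 1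
  have hcont : ContinuousOn f (sphere (0 : X) 1) := by
    rw [Metric.continuousOn_iff]
    intro a ha ε hε
    refine ⟨ε, hε, fun b hb hab => ?_⟩
    have ha1 : ‖a‖ = 1 := by simpa using ha
    have hb1 : ‖b‖ = 1 := by simpa using hb
    rw [dist_eq_norm] at hab ⊢
    rwa [hf.iso b a hb1 ha1]
  have himg : sphere (0 : Y) 1 = f '' sphere (0 : X) 1 := by
    ext z
    constructor
    · intro hz
      obtain ⟨x, hx, hxz⟩ := hf.surj z (by simpa using hz)
      exact ⟨x, by simpa using hx, hxz⟩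
    · rintro ⟨x, hx, rfl⟩
      have hx1 : ‖x‖ = 1 := by simpa using hx
      simpa using hf.norm_eq x hx1
  have hcY : IsCompact (sphere (0 : Y) 1) := by
    rw [himg]; exact hcX.image_of_continuousOn hcont
  exact NS.finiteDimensional_of_compact_sphere hcY

/-- The ambient map of a map of the unit spheres. -/
theorem exists_ambient (f : sphere (0 : X) 1 → sphere (0 : Y) 1) (hf : Isometry f)
    (hs : Function.Surjective f) :
    ∃ g : X → Y, IsSphereIso g ∧ ∀ x : sphere (0 : X) 1, g x = f x := by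
  classical
  have hmemX : ∀ a : X, ‖a‖ = 1 → a ∈ sphere (0 : X) 1 := fun a ha => by simpa using ha
  have hmemY : ∀ y : Y, ‖y‖ = 1 → y ∈ sphere (0 : Y) 1 := fun y hy => by simpa using hy
  have hnormX : ∀ a : sphere (0 : X) 1, ‖(a : X)‖ = 1 := fun a => by simpa using a.2
  have hnormY : ∀ y : sphere (0 : Y) 1, ‖(y : Y)‖ = 1 := fun y => by simpa using y.2
  let g : X → Y := fun a => if h : ‖a‖ = 1 then (f ⟨a, hmemX a h⟩ : Y) else 0
  have hgv : ∀ a (h : ‖a‖ = 1), g a = f ⟨a, hmemX a h⟩ := fun a h => by simp [g, h]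
  have hfdist : ∀ a b : sphere (0 : X) 1, ‖(f a : Y) - f b‖ = ‖(a : X) - b‖ := by
    intro a b
    have := hf.dist_eq a b
    simpa [Subtype.dist_eq, dist_eq_norm] using this
  refine ⟨g, ⟨fun a ha => ?_, fun a b ha hb => ?_, fun y hy => ?_⟩, fun x => ?_⟩
  · rw [hgv a ha]; exact hnormY _
  · rw [hgv a ha, hgv b hb, hfdist]
  · obtain ⟨a, ha⟩ := hs ⟨y, hmemY y hy⟩
    refine ⟨a, hnormX a, ?_⟩
    rw [hgv a (hnormX a)]
    simp [ha]
  · rw [hgv x (hnormX x)]

/-- The inverse of a map of the unit spheres, with the transfer of linear extensions. -/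
theorem exists_inverse (f : sphere (0 : X) 1 → sphere (0 : Y) 1) (hf : Isometry f)
    (hs : Function.Surjective f) :
    ∃ h : sphere (0 : Y) 1 → sphere (0 : X) 1, Isometry h ∧ Function.Surjective h ∧
      ((∃ T : Y ≃ₗᵢ[ℝ] X, ∀ y : sphere (0 : Y) 1, T y = h y) →
        ∃ T : X ≃ₗᵢ[ℝ] Y, ∀ x : sphere (0 : X) 1, T x = f x) := by
  set h := Function.surjInv hs with hh
  have hfh : ∀ y, f (h y) = y := Function.surjInv_eq hs
  have hhf : ∀ x, h (f x) = x := fun x => hf.injective (hfh (f x))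
  refine ⟨h, Isometry.of_dist_eq fun a b => ?_, fun x => ⟨f x, hhf x⟩, ?_⟩
  · rw [← hf.dist_eq, hfh, hfh]
  · rintro ⟨T, hT⟩
    refine ⟨T.symm, fun x => ?_⟩
    rw [LinearIsometryEquiv.symm_apply_eq, hT (f x), hhf]

/-- The inverse of a sphere isometry of an infinite dimensional space: the target is also infinite
dimensional. -/
theorem not_finiteDimensional_target {g : X → Y} (hg : IsSphereIso g)
    (hX : ¬ FiniteDimensional ℝ X) : ¬ FiniteDimensional ℝ Y := by
  intro hY
  obtain ⟨g', hg', -, -⟩ := exists_isSphereIso_inv hg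
  exact hX (finiteDimensional_of_isSphereIso hg')

theorem four_le_rank_of_infinite (hX : ¬ FiniteDimensional ℝ X) :
    (4 : Cardinal) ≤ Module.rank ℝ X := by
  have h1 : Cardinal.aleph0 ≤ Module.rank ℝ X := by
    by_contra hcon
    exact hX (Module.rank_lt_aleph0_iff.1 (not_le.1 hcon))
  exact (Cardinal.natCast_lt_aleph0 (n := 4)).le.trans h1

/-- **Reduction of Tingley's problem to bushes.**  Part one: `f` extends if one of the two spaces is
finite dimensional, or strictly convex, or reflexive, or has all subsets of its unit sphere dentable.  Part two: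
if `f` does not extend, both spheres contain `d`-bushes with the same `d > 0`. -/
theorem main (hrank : (3 : Cardinal) ≤ Module.rank ℝ X)
    (f : sphere (0 : X) 1 → sphere (0 : Y) 1) (hf : Isometry f) (hs : Function.Surjective f) :
    ((FiniteDimensional ℝ X ∨ FiniteDimensional ℝ Y ∨ StrictConvexSpace ℝ X ∨
        StrictConvexSpace ℝ Y ∨
        Function.Surjective (NormedSpace.inclusionInDoubleDual ℝ X) ∨
        Function.Surjective (NormedSpace.inclusionInDoubleDual ℝ Y) ∨
        SubsetsDentable (sphere (0 : X) 1) ∨ SubsetsDentable (sphere (0 : Y) 1)) →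
      ∃ T : X ≃ₗᵢ[ℝ] Y, ∀ x : sphere (0 : X) 1, T x = f x) ∧
    ((∃ T : X ≃ₗᵢ[ℝ] Y, ∀ x : sphere (0 : X) 1, T x = f x) ∨
      ∃ d : ℝ, 0 < d ∧ ∃ (W : Set X) (V : Set Y), IsBush W d ∧ IsBush V d) := by
  obtain ⟨g, hg, hgf⟩ := exists_ambient f hf hs
  -- finite dimensional source
  have hfd : FiniteDimensional ℝ X → ∃ T : X ≃ₗᵢ[ℝ] Y, ∀ x : sphere (0 : X) 1, T x = f x := by
    intro hfd
    refine D3.sphere_isometry_findim3 ?_ f hf hs
    have : ((3 : ℕ) : Cardinal) ≤ ((Module.finrank ℝ X : ℕ) : Cardinal) := by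
      rw [Module.finrank_eq_rank]
      exact_mod_cast hrank
    exact_mod_cast this
  have hconv : ∀ T : X ≃ₗᵢ[ℝ] Y, (∀ x, ‖x‖ = 1 → T x = g x) →
      ∀ x : sphere (0 : X) 1, T x = f x := by
    intro T hT x
    rw [hT x (by simpa using x.2), hgf]
  by_cases hX : FiniteDimensional ℝ X
  · have h := hfd hX
    exact ⟨fun _ => h, Or.inl h⟩
  have hY := not_finiteDimensional_target hg hX
  obtain ⟨h, hh, hhs, htr⟩ := exists_inverse f hf hs
  obtain ⟨g', hg', hg'g, -⟩ := exists_isSphereIso_inv hg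
  have hodd : ∀ a : X, ‖a‖ = 1 → g (-a) = -g a := fun a ha => odd_of_isSphereIso hg ha
  have hodd' : ∀ a : Y, ‖a‖ = 1 → g' (-a) = -g' a := fun a ha => odd_of_isSphereIso hg' ha
  have hadd_ext : (∀ x z : X, ‖x‖ = 1 → ‖z‖ = 1 → ‖x + z‖ = 1 → g (x + z) = g x + g z) →
      ∃ T : X ≃ₗᵢ[ℝ] Y, ∀ x : sphere (0 : X) 1, T x = f x := by
    intro hadd
    obtain ⟨T, hT⟩ := exists_linear_of_additive (four_le_rank_of_infinite hX) hg hodd hadd
    exact ⟨T, hconv T hT⟩
  have hadd_ext' : (∀ x z : Y, ‖x‖ = 1 → ‖z‖ = 1 → ‖x + z‖ = 1 → g' (x + z) = g' x + g' z) →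
      ∃ T : X ≃ₗᵢ[ℝ] Y, ∀ x : sphere (0 : X) 1, T x = f x := by
    intro hadd
    obtain ⟨T, hT⟩ := exists_linear_of_additive (four_le_rank_of_infinite hY) hg' hodd' hadd
    refine ⟨T.symm, hconv T.symm fun x hx => ?_⟩
    rw [LinearIsometryEquiv.symm_apply_eq, hT _ (hg.norm_eq x hx), hg'g x hx]
  refine ⟨?_, ?_⟩
  · have hdx : SubsetsDentable (sphere (0 : X) 1) →
        ∃ T : X ≃ₗᵢ[ℝ] Y, ∀ x : sphere (0 : X) 1, T x = f x := fun h1 =>
      hadd_ext fun x z hx hz hxz => additive_of_subsetsDentable hg hodd h1 hx hz hxz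
    have hdy : SubsetsDentable (sphere (0 : Y) 1) →
        ∃ T : X ≃ₗᵢ[ℝ] Y, ∀ x : sphere (0 : X) 1, T x = f x := fun h1 =>
      hadd_ext' fun x z hx hz hxz => additive_of_subsetsDentable hg' hodd' h1 hx hz hxz
    rintro (h1 | h1 | h1 | h1 | h1 | h1 | h1 | h1)
    · exact absurd h1 hX
    · exact absurd h1 hY
    · exact Dim3N.sphere_isometry_strict3 hrank f hf hs
    · exact htr (Dim3N.sphere_isometry_strict3
        (le_trans (by exact_mod_cast (by norm_num : (3 : ℕ) ≤ 4)) (four_le_rank_of_infinite hY))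
        h hh hhs)
    · exact hdx (subsetsDentable_of_allBounded (allBoundedDentable_of_reflexive h1))
    · exact hdy (subsetsDentable_of_allBounded (allBoundedDentable_of_reflexive h1))
    · exact hdx h1
    · exact hdy h1
  · by_cases hadd : ∀ x z : X, ‖x‖ = 1 → ‖z‖ = 1 → ‖x + z‖ = 1 → g (x + z) = g x + g z
    · exact Or.inl (hadd_ext hadd)
    · push Not at hadd
      obtain ⟨a, b, ha, hb, hab, hne⟩ := hadd
      obtain ⟨h1, h2⟩ := bushes_of_not_additive hg hodd hg' hodd' hg'g ha hb hab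
      refine Or.inr ⟨_, ?_, _, _, h1, h2⟩
      rw [norm_pos_iff]
      intro h0
      exact hne (sub_eq_zero.1 h0).symm

end Vale.Agent.Lib.P084.RNP
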