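/-
A failure of additivity on a unit triple produces a bounded dyadic tree inside one face of the unit
sphere.  Let `f` be an odd surjective isometry of the unit spheres.  A pair is `(p, q)` with `p`, `q`
unit and `p + q` unit.  With `w = g (- f p - f q)` (`g` the inverse of `f`) and `ε = p + q + w`, the
pairs `(p, q - ε)` and `(p - ε, q)` are again pairs, with defects of the same norm, and chords
`p - q + ε`, `p - q - ε` of the same norm as `p - q` (doubling).  So every functional norming the chord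
`p - q` kills `ε` and norms both chords of the children.
-/
import Vale.Agent.Lib.P084.Defs
import Vale.Agent.Lib.P084.RNP.Bush

set_option linter.unusedSectionVars false

namespace Vale.Agent.Lib.P084.RNP

open Vale.Agent.Lib.P084.UC Vale.Agent.Lib.P084.Inf
open Metric

variable {X Y : Type*} [NormedAddCommGroup X] [NormedSpace ℝ X] [NormedAddCommGroup Y]
  [NormedSpace ℝ Y]

/-- The unit sphere has a face containing a bounded dyadic tree. -/
def HasFaceTree (X : Type*) [NormedAddCommGroup X] [NormedSpace ℝ X] : Prop :=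
  ∃ δ : ℝ, 0 < δ ∧ IsFaceTree X δ

section Step

variable {f : X → Y} {g : Y → X}

theorem norm_f_add' (hf : IsSphereIso f) (hodd : ∀ x : X, ‖x‖ = 1 → f (-x) = - f x) {a b : X}
    (ha : ‖a‖ = 1) (hb : ‖b‖ = 1) : ‖f a + f b‖ = ‖a + b‖ := by
  have h := hf.iso a (-b) ha (by rw [norm_neg]; exact hb)
  rw [hodd b hb, sub_neg_eq_add, sub_neg_eq_add] at h
  exact h

/-- The norm identity of the doubling theorem at a pair: `‖2 p + w‖ = ‖p - q‖`. -/
theorem two_add_eq (hf : IsSphereIso f) (hodd : ∀ x : X, ‖x‖ = 1 → f (-x) = - f x) {p q w : X}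
    (hp : ‖p‖ = 1) (hw : ‖w‖ = 1) (hpw : ‖p + w‖ = 1) (hq : ‖q‖ = 1)
    (hfw : f w = - f p - f q) : ‖(2 : ℝ) • p + w‖ = ‖p - q‖ := by
  have hy : ‖-w‖ = 1 := by rw [norm_neg]; exact hw
  have hyx : ‖-w - p‖ = 1 := by
    have : -w - p = -(p + w) := by abel
    rw [this, norm_neg]; exact hpw
  have h := hf.doubling hp hy hyx
  rw [hodd w hw, hfw] at h
  have e1 : f p - (1 / 2 : ℝ) • -(- f p - f q) = (1 / 2 : ℝ) • (f p - f q) := by
    module
  have e2 : p - (1 / 2 : ℝ) • -w = (1 / 2 : ℝ) • ((2 : ℝ) • p + w) := by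
    module
  rw [e1, e2, norm_smul, norm_smul, hf.iso p q hp hq] at h
  have h12 : ‖(1 / 2 : ℝ)‖ = 1 / 2 := by norm_num
  rw [h12] at h
  linarith

end Step

/-- The state of the tree: a pair of unit vectors with a unit sum. -/
structure TPair (X : Type*) [NormedAddCommGroup X] where
  p : X
  q : X
  hp : ‖p‖ = 1
  hq : ‖q‖ = 1
  hpq : ‖p + q‖ = 1

section Tree

variable {f : X → Y} {g : Y → X}

/-- The third coordinate of the `Y`-triple of a pair. -/
noncomputable def third (f : X → Y) (g : Y → X) (P : TPair X) : X := g (- f P.p - f P.q)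

/-- The defect of the `Y`-triple of a pair. -/
noncomputable def defect (f : X → Y) (g : Y → X) (P : TPair X) : X := P.p + P.q + third f g P

variable (hf : IsSphereIso f) (hodd : ∀ x : X, ‖x‖ = 1 → f (-x) = - f x)
  (hg : ∀ z : Y, ‖z‖ = 1 → ‖g z‖ = 1 ∧ f (g z) = z)

include hf hodd hg

theorem third_spec (P : TPair X) :
    ‖third f g P‖ = 1 ∧ f (third f g P) = - f P.p - f P.q := by
  have h1 : ‖- f P.p - f P.q‖ = 1 := by
    have e : - f P.p - f P.q = -(f P.p + f P.q) := by abel
    rw [e, norm_neg, norm_f_add' hf hodd P.hp P.hq]; exact P.hpq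
  exact hg _ h1

theorem p_add_third (P : TPair X) : ‖P.p + third f g P‖ = 1 := by
  obtain ⟨h1, h2⟩ := third_spec hf hodd hg P
  rw [← norm_f_add' hf hodd P.hp h1, h2]
  have e : f P.p + (- f P.p - f P.q) = - f P.q := by abel
  rw [e, norm_neg]; exact hf.norm_eq _ P.hq

theorem q_add_third (P : TPair X) : ‖P.q + third f g P‖ = 1 := by
  obtain ⟨h1, h2⟩ := third_spec hf hodd hg P
  rw [← norm_f_add' hf hodd P.hq h1, h2]
  have e : f P.q + (- f P.p - f P.q) = - f P.p := by abel
  rw [e, norm_neg]; exact hf.norm_eq _ P.hp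

theorem q_sub_defect (P : TPair X) : P.q - defect f g P = -(P.p + third f g P) := by
  simp only [defect]; abel

theorem p_sub_defect (P : TPair X) : P.p - defect f g P = -(P.q + third f g P) := by
  simp only [defect]; abel

/-- Child: move `q`. -/
noncomputable def childT (hf : IsSphereIso f) (hodd : ∀ x : X, ‖x‖ = 1 → f (-x) = - f x)
    (hg : ∀ z : Y, ‖z‖ = 1 → ‖g z‖ = 1 ∧ f (g z) = z) (P : TPair X) : TPair X where
  p := P.p
  q := P.q - defect f g P
  hp := P.hp
  hq := by rw [q_sub_defect hf hodd hg, norm_neg]; exact p_add_third hf hodd hg P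
  hpq := by
    have e : P.p + (P.q - defect f g P) = - third f g P := by simp only [defect]; abel
    rw [e, norm_neg]; exact (third_spec hf hodd hg P).1

/-- Child: move `p`. -/
noncomputable def childF (hf : IsSphereIso f) (hodd : ∀ x : X, ‖x‖ = 1 → f (-x) = - f x)
    (hg : ∀ z : Y, ‖z‖ = 1 → ‖g z‖ = 1 ∧ f (g z) = z) (P : TPair X) : TPair X where
  p := P.p - defect f g P
  q := P.q
  hp := by rw [p_sub_defect hf hodd hg, norm_neg]; exact q_add_third hf hodd hg P
  hq := P.hq
  hpq := by
    have e : P.p - defect f g P + P.q = - third f g P := by simp only [defect]; abel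
    rw [e, norm_neg]; exact (third_spec hf hodd hg P).1

theorem chord_add (P : TPair X) : ‖P.p - P.q + defect f g P‖ = ‖P.p - P.q‖ := by
  obtain ⟨h1, h2⟩ := third_spec hf hodd hg P
  have e : P.p - P.q + defect f g P = (2 : ℝ) • P.p + third f g P := by
    simp only [defect]; module
  rw [e]
  exact two_add_eq hf hodd P.hp h1 (p_add_third hf hodd hg P) P.hq h2

theorem chord_sub (P : TPair X) : ‖P.p - P.q - defect f g P‖ = ‖P.p - P.q‖ := by
  obtain ⟨h1, h2⟩ := third_spec hf hodd hg P
  have e : P.p - P.q - defect f g P = -((2 : ℝ) • P.q + third f g P) := by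
    simp only [defect]; module
  rw [e, norm_neg, norm_sub_rev P.p P.q]
  refine two_add_eq hf hodd P.hq h1 (q_add_third hf hodd hg P) P.hp ?_
  rw [h2]; abel

theorem defect_childT (P : TPair X) :
    ‖defect f g (childT hf hodd hg P)‖ = ‖defect f g P‖ := by
  obtain ⟨h1, h2⟩ := third_spec hf hodd hg P
  obtain ⟨h3, h4⟩ := third_spec hf hodd hg (childT hf hodd hg P)
  have e : defect f g (childT hf hodd hg P) = third f g (childT hf hodd hg P) - third f g P := by
    simp only [defect, childT]; abel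
  rw [e, ← hf.iso _ _ h3 h1, h4, h2]
  have e2 : - f (childT hf hodd hg P).p - f (childT hf hodd hg P).q - (- f P.p - f P.q) =
      f P.q - f (P.q - defect f g P) := by
    simp only [childT]; abel
  have e4 : ‖f P.q - f (P.q - defect f g P)‖ = ‖P.q - (P.q - defect f g P)‖ :=
    hf.iso _ _ P.hq (childT hf hodd hg P).hq
  have e3 : P.q - (P.q - defect f g P) = defect f g P := by abel
  rw [e2, e4, e3]

theorem defect_childF (P : TPair X) :
    ‖defect f g (childF hf hodd hg P)‖ = ‖defect f g P‖ := by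
  obtain ⟨h1, h2⟩ := third_spec hf hodd hg P
  obtain ⟨h3, h4⟩ := third_spec hf hodd hg (childF hf hodd hg P)
  have e : defect f g (childF hf hodd hg P) = third f g (childF hf hodd hg P) - third f g P := by
    simp only [defect, childF]; abel
  rw [e, ← hf.iso _ _ h3 h1, h4, h2]
  have e2 : - f (childF hf hodd hg P).p - f (childF hf hodd hg P).q - (- f P.p - f P.q) =
      f P.p - f (P.p - defect f g P) := by
    simp only [childF]; abel
  have e4 : ‖f P.p - f (P.p - defect f g P)‖ = ‖P.p - (P.p - defect f g P)‖ :=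
    hf.iso _ _ P.hp (childF hf hodd hg P).hp
  have e3 : P.p - (P.p - defect f g P) = defect f g P := by abel
  rw [e2, e4, e3]

/-- The nodes of the tree. -/
noncomputable def node (hf : IsSphereIso f) (hodd : ∀ x : X, ‖x‖ = 1 → f (-x) = - f x)
    (hg : ∀ z : Y, ‖z‖ = 1 → ‖g z‖ = 1 ∧ f (g z) = z) (P : TPair X) : List Bool → TPair X
  | [] => P
  | true :: s => childT hf hodd hg (node hf hodd hg P s)
  | false :: s => childF hf hodd hg (node hf hodd hg P s)

theorem node_invariant (P : TPair X) (χ : X →L[ℝ] ℝ) (hχ : ‖χ‖ ≤ 1)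
    (hχP : χ (P.p - P.q) = ‖P.p - P.q‖) (s : List Bool) :
    ‖(node hf hodd hg P s).p - (node hf hodd hg P s).q‖ = ‖P.p - P.q‖ ∧
      χ ((node hf hodd hg P s).p - (node hf hodd hg P s).q) = ‖P.p - P.q‖ ∧
      ‖defect f g (node hf hodd hg P s)‖ = ‖defect f g P‖ := by
  have hle : ∀ v : X, χ v ≤ ‖v‖ := fun v => by
    have h1 := χ.le_opNorm v
    have h2 : ‖χ‖ * ‖v‖ ≤ 1 * ‖v‖ := mul_le_mul_of_nonneg_right hχ (norm_nonneg v)
    have h3 := le_abs_self (χ v)
    rw [Real.norm_eq_abs] at h1
    linarith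
  induction s with
  | nil => exact ⟨rfl, hχP, rfl⟩
  | cons b s ih =>
    obtain ⟨i1, i2, i3⟩ := ih
    set Q := node hf hodd hg P s with hQ
    have c1 := chord_add hf hodd hg Q
    have c2 := chord_sub hf hodd hg Q
    have hk1 := hle (Q.p - Q.q + defect f g Q)
    have hk2 := hle (Q.p - Q.q - defect f g Q)
    rw [c1, i1, map_add, i2] at hk1
    rw [c2, i1, map_sub, i2] at hk2
    have hzero : χ (defect f g Q) = 0 := by linarith
    cases b with
    | true =>
      have hn : node hf hodd hg P (true :: s) = childT hf hodd hg Q := rfl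
      have e : (childT hf hodd hg Q).p - (childT hf hodd hg Q).q = Q.p - Q.q + defect f g Q := by
        simp only [childT]; abel
      rw [hn, e]
      refine ⟨by rw [c1, i1], by rw [map_add, i2, hzero, add_zero], ?_⟩
      rw [defect_childT hf hodd hg, i3]
    | false =>
      have hn : node hf hodd hg P (false :: s) = childF hf hodd hg Q := rfl
      have e : (childF hf hodd hg Q).p - (childF hf hodd hg Q).q = Q.p - Q.q - defect f g Q := by
        simp only [childF]; abel
      rw [hn, e]
      refine ⟨by rw [c2, i1], by rw [map_sub, i2, hzero, sub_zero], ?_⟩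
      rw [defect_childF hf hodd hg, i3]

theorem chord_ne_zero (P : TPair X) : P.p - P.q ≠ 0 := by
  intro h
  have h1 : P.p = P.q := sub_eq_zero.1 h
  have h2 := P.hpq
  rw [← h1, ← two_smul ℝ P.p, norm_smul, P.hp] at h2
  norm_num at h2

/-- **A pair with a nonzero defect gives a dyadic tree on a face of the unit sphere.** -/
theorem isFaceTree_of_pair (P : TPair X) :
    IsFaceTree X (‖defect f g P‖ / ‖P.p - P.q‖) := by
  have hne := chord_ne_zero hf hodd hg P
  have hn0 : ‖P.p - P.q‖ ≠ 0 := norm_ne_zero_iff.mpr hne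
  obtain ⟨χ, hχ1, hχ2⟩ := exists_dual_vector ℝ (P.p - P.q) hn0
  have hχP : χ (P.p - P.q) = ‖P.p - P.q‖ := by exact_mod_cast hχ2
  set c : ℝ := ‖P.p - P.q‖⁻¹ with hc
  have hc0 : 0 ≤ c := by positivity
  refine ⟨χ, fun s => c • ((node hf hodd hg P s).p - (node hf hodd hg P s).q), hχ1.le, fun s => ?_⟩
  obtain ⟨i1, i2, i3⟩ := node_invariant hf hodd hg P χ hχ1.le hχP s
  have hT : node hf hodd hg P (true :: s) = childT hf hodd hg (node hf hodd hg P s) := rfl
  have hF : node hf hodd hg P (false :: s) = childF hf hodd hg (node hf hodd hg P s) := rfl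
  refine ⟨?_, ?_, ?_, ?_⟩
  · show ‖c • ((node hf hodd hg P s).p - (node hf hodd hg P s).q)‖ = 1
    rw [norm_smul, i1, Real.norm_of_nonneg hc0, hc, inv_mul_cancel₀ hn0]
  · show χ (c • ((node hf hodd hg P s).p - (node hf hodd hg P s).q)) = 1
    rw [map_smul, smul_eq_mul, i2, hc, inv_mul_cancel₀ hn0]
  · show c • ((node hf hodd hg P (true :: s)).p - (node hf hodd hg P (true :: s)).q) +
      c • ((node hf hodd hg P (false :: s)).p - (node hf hodd hg P (false :: s)).q) =
      (2 : ℝ) • (c • ((node hf hodd hg P s).p - (node hf hodd hg P s).q))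
    rw [hT, hF]
    simp only [childT, childF]
    module
  · show ‖c • ((node hf hodd hg P (true :: s)).p - (node hf hodd hg P (true :: s)).q) -
      c • ((node hf hodd hg P s).p - (node hf hodd hg P s).q)‖ = _
    rw [hT, ← smul_sub]
    have e : (childT hf hodd hg (node hf hodd hg P s)).p -
        (childT hf hodd hg (node hf hodd hg P s)).q -
        ((node hf hodd hg P s).p - (node hf hodd hg P s).q) =
        defect f g (node hf hodd hg P s) := by
      simp only [childT]; abel
    rw [e, norm_smul, i3, Real.norm_of_nonneg hc0, hc, div_eq_inv_mul]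

end Tree

section Corollaries

/-- The nodes of a face tree form a bush. -/
theorem IsFaceTree.isBush {δ : ℝ} (h : IsFaceTree X δ) : ∃ W : Set X, IsBush W δ := by
  obtain ⟨χ, a, -, ha⟩ := h
  refine ⟨Set.range a, ⟨a [], ⟨[], rfl⟩⟩, ?_, ?_⟩
  · rintro _ ⟨s, rfl⟩
    exact (ha s).1
  · rintro _ ⟨s, rfl⟩
    obtain ⟨-, -, h3, h4⟩ := ha s
    have hmid : a s = (1 / 2 : ℝ) • a (true :: s) + (1 / 2 : ℝ) • a (false :: s) := by
      rw [← smul_add, h3, smul_smul]
      norm_num
    have h5 : ‖a (false :: s) - a s‖ = δ := by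
      have e : a (false :: s) - a s = -(a (true :: s) - a s) := by
        have e2 : a (false :: s) = (2 : ℝ) • a s - a (true :: s) := by
          rw [← h3]; abel
        rw [e2, two_smul]; abel
      rw [e, norm_neg, h4]
    apply subset_closure
    have hmem : ∀ t : List Bool, ‖a t - a s‖ = δ →
        a t ∈ convexHull ℝ {u | u ∈ Set.range a ∧ ‖u - a s‖ = δ} := fun t ht =>
      subset_convexHull ℝ _ ⟨⟨t, rfl⟩, ht⟩
    have hc := convex_convexHull ℝ {u | u ∈ Set.range a ∧ ‖u - a s‖ = δ}
      (hmem _ h4) (hmem _ h5) (by norm_num : (0 : ℝ) ≤ 1 / 2) (by norm_num : (0 : ℝ) ≤ 1 / 2)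
      (by norm_num)
    rwa [← hmid] at hc

/-- A face tree excludes dentability of the subsets of the unit sphere. -/
theorem IsFaceTree.not_subsetsDentable {δ : ℝ} (h : IsFaceTree X δ) (hδ : 0 < δ) :
    ¬ SubsetsDentable (sphere (0 : X) 1) := by
  intro hd
  obtain ⟨W, hW⟩ := h.isBush
  refine hW.not_dentable hδ (hd W (fun x hx => ?_) hW.1)
  simpa using hW.2.1 x hx

/-- A face tree excludes strict convexity. -/
theorem IsFaceTree.not_strictConvex {δ : ℝ} (h : IsFaceTree X δ) (hδ : 0 < δ) :
    ¬ StrictConvexSpace ℝ X := by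
  intro hs
  obtain ⟨χ, a, -, ha⟩ := h
  obtain ⟨h1, -, h3, h4⟩ := ha []
  obtain ⟨h1', -, -, -⟩ := ha [true]
  obtain ⟨h1'', -, -, -⟩ := ha [false]
  have hne : a [true] ≠ a [false] := by
    intro heq
    have e : a [true] = a [] := by
      have h5 : (2 : ℝ) • a [true] = (2 : ℝ) • a [] := by
        rw [← h3, ← heq, two_smul]
      exact smul_right_injective X (by norm_num : (2 : ℝ) ≠ 0) h5
    rw [e, sub_self, norm_zero] at h4
    linarith
  have hlt : ‖(1 / 2 : ℝ) • (a [true] + a [false])‖ < ‖a [true]‖ :=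
    (norm_midpoint_lt_iff (E := X) (x := a [true]) (y := a [false])
      (by rw [h1', h1''])).2 hne
  rw [h3, smul_smul, h1'] at hlt
  norm_num at hlt
  rw [h1] at hlt
  exact lt_irrefl _ hlt

end Corollaries

section Main

variable {f : X → Y} {g : Y → X}

/-- **A failure of additivity on a unit triple gives dyadic trees on faces of both unit spheres,
with the same increment.** -/
theorem faceTree_of_not_additive (hf : IsSphereIso f) (hodd : ∀ x : X, ‖x‖ = 1 → f (-x) = - f x)
    (hg : IsSphereIso g) (hgodd : ∀ y : Y, ‖y‖ = 1 → g (-y) = - g y)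
    (hgf : ∀ x : X, ‖x‖ = 1 → g (f x) = x) (hfg : ∀ y : Y, ‖y‖ = 1 → f (g y) = y) {a b : X}
    (ha : ‖a‖ = 1) (hb : ‖b‖ = 1) (hab : ‖a + b‖ = 1) (hne : f (a + b) ≠ f a + f b) :
    ∃ δ : ℝ, 0 < δ ∧ IsFaceTree X δ ∧ IsFaceTree Y δ := by
  have hI : ∀ z : Y, ‖z‖ = 1 → ‖g z‖ = 1 ∧ f (g z) = z := fun z hz => ⟨hg.norm_eq z hz, hfg z hz⟩
  have hJ : ∀ x : X, ‖x‖ = 1 → ‖f x‖ = 1 ∧ g (f x) = x := fun x hx => ⟨hf.norm_eq x hx, hgf x hx⟩
  let P : TPair X := ⟨a, b, ha, hb, hab⟩
  let Q : TPair Y := ⟨f a, f b, hf.norm_eq a ha, hf.norm_eq b hb, by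
    rw [norm_f_add' hf hodd ha hb]; exact hab⟩
  have hT := isFaceTree_of_pair hf hodd hI P
  have hT' := isFaceTree_of_pair hg hgodd hJ Q
  obtain ⟨h1, h2⟩ := third_spec hf hodd hI P
  have hchord : ‖Q.p - Q.q‖ = ‖P.p - P.q‖ := hf.iso a b ha hb
  have hneg : ‖-(a + b)‖ = 1 := by rw [norm_neg]; exact hab
  have hdef : ‖defect g f Q‖ = ‖defect f g P‖ := by
    have e1 : third g f Q = f (-(a + b)) := by
      show f (- g (f a) - g (f b)) = _
      rw [hgf a ha, hgf b hb]
      congr 1
      abel
    have e2 : defect g f Q = f a + f b + f (-(a + b)) := by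
      show f a + f b + third g f Q = _
      rw [e1]
    have e3 : defect f g P = third f g P - (-(a + b)) := by
      show a + b + third f g P = _
      abel
    rw [e2, e3, ← hf.iso _ _ h1 hneg, h2, ← norm_neg]
    congr 1
    show -(f a + f b + f (-(a + b))) = - f a - f b - f (-(a + b))
    abel
  have hpos : 0 < ‖defect f g P‖ := by
    rw [norm_pos_iff]
    intro h0
    have e : third f g P = -(a + b) := by
      have e3 : a + b + third f g P = 0 := h0
      rw [eq_neg_iff_add_eq_zero, add_comm]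
      exact e3
    apply hne
    have h3 := h2
    rw [e, hodd _ hab] at h3
    show f (a + b) = f a + f b
    have h4 : f (a + b) = -(- f a - f b) := by rw [← h3, neg_neg]
    rw [h4]
    abel
  have hcpos : 0 < ‖P.p - P.q‖ := norm_pos_iff.mpr (chord_ne_zero hf hodd hI P)
  refine ⟨_, div_pos hpos hcpos, hT, ?_⟩
  rw [← hdef, ← hchord]
  exact hT'

end Main

end Vale.Agent.Lib.P084.RNP
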