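import Vale.Agent.Lib.P084.UC.APlus
import Vale.Agent.Lib.P084.Dim4.Unif

/-!
Theorem 4 of the RNP plan: slicing.  If `f` is a surjective isometry of unit spheres and on every
finite dimensional subspace of dimension at least four the restriction of `f` to the sphere of the
subspace is the restriction of a continuous linear map, then `f` extends to a surjective linear
isometry of the whole space.  Also the passage from maps of spheres to ambient maps.
-/

namespace Vale.Agent.Lib.P084.RNP.G52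

open Metric
open Vale.Agent.Lib.P084.UC

variable {X Y : Type*} [NormedAddCommGroup X] [NormedSpace ℝ X] [NormedAddCommGroup Y]
  [NormedSpace ℝ Y]

/-- The radial extension. -/
noncomputable def radial (f : X → Y) (a : X) : Y := ‖a‖ • f (‖a‖⁻¹ • a)

theorem norm_unit {x : X} (hx : x ≠ 0) : ‖‖x‖⁻¹ • x‖ = 1 := by
  have hn : ‖x‖ ≠ 0 := norm_ne_zero_iff.2 hx
  rw [norm_smul, norm_inv, norm_norm, inv_mul_cancel₀ hn]

theorem radial_zero (f : X → Y) : radial f (0 : X) = 0 := by
  simp [radial]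

theorem radial_norm {f : X → Y} (hf : IsSphereIso f) (x : X) : ‖radial f x‖ = ‖x‖ := by
  by_cases hx : x = 0
  · subst hx
    simp [radial]
  · simp only [radial]
    rw [norm_smul, hf.norm_eq _ (norm_unit hx), norm_norm, mul_one]

theorem radial_sphere (f : X → Y) {x : X} (hx : ‖x‖ = 1) : radial f x = f x := by
  simp only [radial, hx, inv_one, one_smul]

/-- A continuous linear map on a subspace agreeing with `f` on the sphere of the subspace is the
radial extension of `f` on the subspace. -/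
theorem radial_of_linear {f : X → Y} {F : Submodule ℝ X} {L : F →L[ℝ] Y}
    (hL : ∀ x : F, ‖(x : X)‖ = 1 → L x = f x) (x : F) : L x = radial f (x : X) := by
  by_cases hx : x = 0
  · subst hx
    simp [radial]
  · have hx' : (x : X) ≠ 0 := fun h => hx (Subtype.ext h)
    have hn : ‖x‖ ≠ 0 := norm_ne_zero_iff.2 hx
    have hn' : ‖(x : X)‖ = ‖x‖ := rfl
    have hu : ‖((‖x‖⁻¹ • x : F) : X)‖ = 1 := by
      have := norm_unit hx'
      rwa [hn'] at this
    have h1 := hL _ hu
    have h2 : L x = ‖x‖ • L (‖x‖⁻¹ • x) := by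
      rw [map_smul, smul_smul, mul_inv_cancel₀ hn, one_smul]
    rw [h2, h1]
    simp only [radial, hn']
    rfl

/-- **Slicing.** -/
theorem glue_of_core (hrank : (4 : Cardinal) ≤ Module.rank ℝ X) {f : X → Y} (hf : IsSphereIso f)
    (hcore : ∀ F : Submodule ℝ X, FiniteDimensional ℝ F → 4 ≤ Module.finrank ℝ F →
      ∃ L : F →L[ℝ] Y, ∀ x : F, ‖(x : X)‖ = 1 → L x = f x) :
    ∃ T : X ≃ₗᵢ[ℝ] Y, ∀ x : X, ‖x‖ = 1 → T x = f x := by
  classical
  have hRnorm : ∀ x, ‖radial f x‖ = ‖x‖ := radial_norm hf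
  have hRadd : ∀ x x', radial f (x + x') = radial f x + radial f x' := by
    intro x x'
    obtain ⟨F, hFd, hF4, hFS⟩ := Vale.Agent.Lib.P084.Dim4.exists_sub hrank {x, x'}
    have hxF : x ∈ F := hFS x (by simp)
    have hx'F : x' ∈ F := hFS x' (by simp)
    obtain ⟨L, hL⟩ := hcore F hFd hF4
    have h1 := radial_of_linear hL ⟨x, hxF⟩
    have h2 := radial_of_linear hL ⟨x', hx'F⟩
    have h3 := radial_of_linear hL (⟨x, hxF⟩ + ⟨x', hx'F⟩)
    rw [map_add, h1, h2] at h3
    exact h3.symm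
  set Rh : X →+ Y := AddMonoidHom.mk' (radial f) hRadd with hRh
  have hiso : Isometry Rh := AddMonoidHomClass.isometry_of_norm _ hRnorm
  set L : X →L[ℝ] Y := Rh.toRealLinearMap hiso.continuous with hL
  have hLapp : ∀ x, L x = radial f x := fun x => rfl
  have hLs : ∀ x, ‖x‖ = 1 → L x = f x := by
    intro x hx
    rw [hLapp, radial_sphere f hx]
  have hsurj : Function.Surjective L := by
    intro y
    by_cases hy : y = 0
    · exact ⟨0, by rw [hy, map_zero]⟩
    · have hn : 0 < ‖y‖ := norm_pos_iff.2 hy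
      obtain ⟨a, ha, hga⟩ := hf.surj _ (norm_unit hy)
      refine ⟨‖y‖ • a, ?_⟩
      rw [map_smul, hLs a ha, hga, smul_smul, mul_inv_cancel₀ hn.ne', one_smul]
  let Li : X →ₗᵢ[ℝ] Y := ⟨L.toLinearMap, fun x => hRnorm x⟩
  exact ⟨LinearIsometryEquiv.ofSurjective Li hsurj, fun x hx => hLs x hx⟩

/-- From additive norm preserving maps to continuous linear maps. -/
theorem exists_clm_of_additive {F : Type*} [NormedAddCommGroup F] [NormedSpace ℝ F]
    {T : F → Y} (hadd : ∀ a b, T (a + b) = T a + T b) (hnorm : ∀ a, ‖T a‖ = ‖a‖) :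
    ∃ L : F →L[ℝ] Y, ∀ a, L a = T a := by
  let Rh : F →+ Y := AddMonoidHom.mk' T hadd
  have hiso : Isometry Rh := AddMonoidHomClass.isometry_of_norm _ hnorm
  exact ⟨Rh.toRealLinearMap hiso.continuous, fun _ => rfl⟩

/-- From maps of the unit spheres to ambient maps. -/
theorem exists_ambient (f : sphere (0 : X) 1 → sphere (0 : Y) 1) (hf : Isometry f)
    (hs : Function.Surjective f) :
    ∃ g : X → Y, IsSphereIso g ∧ ∀ x : sphere (0 : X) 1, g x = f x := by
  classical
  have hmemX : ∀ a : X, ‖a‖ = 1 → a ∈ sphere (0 : X) 1 := fun a ha => by simp [ha]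
  have hmemY : ∀ y : Y, ‖y‖ = 1 → y ∈ sphere (0 : Y) 1 := fun y hy => by simp [hy]
  have hnormX : ∀ a : sphere (0 : X) 1, ‖(a : X)‖ = 1 := fun a => by simpa using a.2
  have hnormY : ∀ y : sphere (0 : Y) 1, ‖(y : Y)‖ = 1 := fun y => by simpa using y.2
  set g : X → Y := fun a => if h : ‖a‖ = 1 then (f ⟨a, hmemX a h⟩ : Y) else 0 with hg
  have hgv : ∀ a (h : ‖a‖ = 1), g a = f ⟨a, hmemX a h⟩ := fun a h => by simp [hg, h]
  have hfdist : ∀ a b : sphere (0 : X) 1, ‖(f a : Y) - f b‖ = ‖(a : X) - b‖ := by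
    intro a b
    have := hf.dist_eq a b
    simpa [Subtype.dist_eq, dist_eq_norm] using this
  refine ⟨g, ⟨fun a ha => ?_, fun a b ha hb => ?_, fun y hy => ?_⟩, fun x => ?_⟩
  · rw [hgv a ha]; exact hnormY _
  · rw [hgv a ha, hgv b hb, hfdist]
  · obtain ⟨a, ha⟩ := hs ⟨y, hmemY y hy⟩
    refine ⟨a, hnormX a, ?_⟩
    rw [hgv a (hnormX a)]
    simp [ha]
  · rw [hgv x (hnormX x)]

/-- The inverse of a sphere isometry. -/
theorem exists_inverse {f : X → Y} (hf : IsSphereIso f) :
    ∃ h : Y → X, IsSphereIso h ∧ (∀ x : X, ‖x‖ = 1 → h (f x) = x)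
      ∧ ∀ y : Y, ‖y‖ = 1 → f (h y) = y := by
  classical
  set h : Y → X := fun y => if hy : ‖y‖ = 1 then (hf.surj y hy).choose else 0 with hh
  have hv : ∀ y, ‖y‖ = 1 → ‖h y‖ = 1 ∧ f (h y) = y := by
    intro y hy
    simp only [hh, hy, dif_pos]
    exact (hf.surj y hy).choose_spec
  have hleft : ∀ x : X, ‖x‖ = 1 → h (f x) = x := by
    intro x hx
    have hy := hf.norm_eq x hx
    obtain ⟨h1, h2⟩ := hv (f x) hy
    have := hf.iso (h (f x)) x h1 hx
    rw [h2, sub_self, norm_zero] at this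
    exact sub_eq_zero.1 (norm_eq_zero.1 this.symm)
  refine ⟨h, ⟨fun y hy => (hv y hy).1, fun y y' hy hy' => ?_, fun x hx => ?_⟩, hleft,
    fun y hy => (hv y hy).2⟩
  · rw [← hf.iso _ _ (hv y hy).1 (hv y' hy').1, (hv y hy).2, (hv y' hy').2]
  · exact ⟨f x, hf.norm_eq x hx, hleft x hx⟩

end Vale.Agent.Lib.P084.RNP.G52
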