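/-
The union of the extension theorems: finite dimension, strict convexity, reflexivity, dentability of
the faces of the unit sphere, nontrivial L-projections and M-projections, on either side, and the
reduction of the general case to dyadic trees in faces.
-/
import Vale.Agent.Lib.P084.RNP.Top
import Vale.Agent.Lib.P084.RNP.FaceTree
import Vale.Agent.Lib.P084.MSum.Main
import Vale.Agent.Lib.P084.LSum.Top
import Vale.Agent.Lib.P084.LpGen.Top
import Vale.Agent.Lib.P084.FaceDist.Rel
import Vale.Agent.Lib.P084.C0.Top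
import Vale.Agent.Lib.P084.SepRed.C0H
import Vale.Agent.Lib.P084.BallFace.Main
import Vale.Agent.Lib.P084.Flat.Top

namespace Vale.Agent.Lib.P084.RNP

open Vale.Agent.Lib.P084.UC Vale.Agent.Lib.P084.Inf
open Metric

universe u v

variable {X : Type u} {Y : Type v} [NormedAddCommGroup X] [NormedSpace ℝ X] [NormedAddCommGroup Y]
  [NormedSpace ℝ Y]

/-- An M-projection splits the space as a sup-norm product. -/
theorem exists_prod_of_Mprojection {P : X →L[ℝ] X} (hP : IsMprojection X P) :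
    Nonempty (X ≃ₗᵢ[ℝ] (LinearMap.range P.toLinearMap × LinearMap.ker P.toLinearMap)) := by
  have hidem : ∀ x, P (P x) = P x := fun x => by
    have h := hP.proj
    have := congrArg (fun Q : X →L[ℝ] X => Q x) h.eq
    simpa using this
  have hnorm : ∀ x, ‖x‖ = max ‖P x‖ ‖x - P x‖ := fun x => by
    have := hP.Mnorm x
    simpa [sub_apply] using this
  let Z := LinearMap.range P.toLinearMap
  let W := LinearMap.ker P.toLinearMap
  let L : X →ₗ[ℝ] Z × W :=
    { toFun := fun x => (⟨P x, ⟨x, rfl⟩⟩, ⟨x - P x, by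
        show P (x - P x) = 0
        rw [map_sub, hidem, sub_self]⟩)
      map_add' := fun x y => by
        ext <;> simp <;> abel
      map_smul' := fun c x => by
        ext <;> simp [smul_sub] }
  have hL : ∀ x, ‖L x‖ = ‖x‖ := fun x => by
    rw [hnorm x, Prod.norm_def]
    rfl
  let Li : X →ₗᵢ[ℝ] Z × W := ⟨L, hL⟩
  have hsurj : Function.Surjective Li := by
    rintro ⟨⟨z, a, rfl⟩, ⟨w, hw⟩⟩
    have hw' : P w = 0 := hw
    refine ⟨P a + w, ?_⟩
    apply Prod.ext
    · apply Subtype.ext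
      show P (P a + w) = P a
      rw [map_add, hidem, hw', add_zero]
    · apply Subtype.ext
      show (P a + w) - P (P a + w) = w
      rw [map_add, hidem, hw', add_zero]
      abel
  exact ⟨LinearIsometryEquiv.ofSurjective Li hsurj⟩

/-- Transport of a map of the unit spheres along a surjective linear isometry of the source. -/
theorem extends_of_equiv {X' : Type*} [NormedAddCommGroup X'] [NormedSpace ℝ X']
    (e : X ≃ₗᵢ[ℝ] X') (f : sphere (0 : X) 1 → sphere (0 : Y) 1) (hf : Isometry f)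
    (hs : Function.Surjective f)
    (H : ∀ F : sphere (0 : X') 1 → sphere (0 : Y) 1, Isometry F → Function.Surjective F →
      ∃ T : X' ≃ₗᵢ[ℝ] Y, ∀ x : sphere (0 : X') 1, T x = F x) :
    ∃ T : X ≃ₗᵢ[ℝ] Y, ∀ x : sphere (0 : X) 1, T x = f x := by
  have hmem : ∀ p : sphere (0 : X') 1, e.symm p ∈ sphere (0 : X) 1 := fun p => by
    have h1 : ‖(p : X')‖ = 1 := by simpa using p.2
    simp [h1]
  have hmem' : ∀ x : sphere (0 : X) 1, e x ∈ sphere (0 : X') 1 := fun x => by
    have h1 : ‖(x : X)‖ = 1 := by simpa using x.2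
    simp [h1]
  let F : sphere (0 : X') 1 → sphere (0 : Y) 1 := fun p => f ⟨e.symm p, hmem p⟩
  have hF : Isometry F := Isometry.of_dist_eq fun p q => by
    show dist (f _) (f _) = _
    rw [hf.dist_eq, Subtype.dist_eq, Subtype.dist_eq]
    exact e.symm.isometry.dist_eq _ _
  have hFs : Function.Surjective F := fun y => by
    obtain ⟨x, rfl⟩ := hs y
    refine ⟨⟨e x, hmem' x⟩, ?_⟩
    show f _ = f x
    congr 1
    apply Subtype.ext
    simp
  obtain ⟨T, hT⟩ := H F hF hFs
  refine ⟨e.trans T, fun x => ?_⟩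
  have h1 := hT ⟨e x, hmem' x⟩
  have h2 : F ⟨e x, hmem' x⟩ = f x := by
    show f _ = f x
    congr 1
    apply Subtype.ext
    simp
  rw [h2] at h1
  exact h1

/-- Extension if the source has a nontrivial M-projection. -/
theorem extends_of_Mprojection_source (f : sphere (0 : X) 1 → sphere (0 : Y) 1) (hf : Isometry f)
    (hs : Function.Surjective f) {P : X →L[ℝ] X} (hP : IsMprojection X P) (h0 : P ≠ 0)
    (h1 : P ≠ 1) : ∃ T : X ≃ₗᵢ[ℝ] Y, ∀ x : sphere (0 : X) 1, T x = f x := by
  obtain ⟨e⟩ := exists_prod_of_Mprojection hP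
  have hZ : Nontrivial (LinearMap.range P.toLinearMap) := by
    obtain ⟨x, hx⟩ : ∃ x, P x ≠ 0 := by
      by_contra hcon
      push Not at hcon
      exact h0 (ContinuousLinearMap.ext hcon)
    refine ⟨⟨⟨P x, ⟨x, rfl⟩⟩, 0, fun h => hx ?_⟩⟩
    exact congrArg Subtype.val h
  have hW : Nontrivial (LinearMap.ker P.toLinearMap) := by
    have hidem : ∀ x, P (P x) = P x := fun x => by
      have h := hP.proj
      have := congrArg (fun Q : X →L[ℝ] X => Q x) h.eq
      simpa using this
    obtain ⟨x, hx⟩ : ∃ x, P x ≠ x := by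
      by_contra hcon
      push Not at hcon
      exact h1 (ContinuousLinearMap.ext hcon)
    refine ⟨⟨⟨x - P x, by
      show P (x - P x) = 0
      rw [map_sub, hidem, sub_self]⟩, 0, fun h => hx ?_⟩⟩
    have h2 : x - P x = 0 := congrArg Subtype.val h
    exact (sub_eq_zero.1 h2).symm
  exact extends_of_equiv e f hf hs fun F hF hFs => MSum.sphere_isometry_prod F hF hFs

/-- Extension if the target has a nontrivial M-projection. -/
theorem extends_of_Mprojection_target (f : sphere (0 : X) 1 → sphere (0 : Y) 1) (hf : Isometry f)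
    (hs : Function.Surjective f) {P : Y →L[ℝ] Y} (hP : IsMprojection Y P) (h0 : P ≠ 0)
    (h1 : P ≠ 1) : ∃ T : X ≃ₗᵢ[ℝ] Y, ∀ x : sphere (0 : X) 1, T x = f x := by
  obtain ⟨h, hh, hhs, htr⟩ := exists_inverse f hf hs
  exact htr (extends_of_Mprojection_source h hh hhs hP h0 h1)

/-- All nonempty subsets of all faces `{x : ‖x‖ = 1, χ x = 1}`, `‖χ‖ ≤ 1`, of the unit sphere are
dentable.  This holds if the space is strictly convex, if all faces are compact, and if all subsets of
the unit sphere are dentable. -/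
def FacesDentable (X : Type*) [NormedAddCommGroup X] [NormedSpace ℝ X] : Prop :=
  ∀ χ : X →L[ℝ] ℝ, ‖χ‖ ≤ 1 → SubsetsDentable {x : X | ‖x‖ = 1 ∧ χ x = 1}

theorem FacesDentable.of_subsetsDentable (h : SubsetsDentable (sphere (0 : X) 1)) :
    FacesDentable X := fun _ _ A hA hne =>
  h A (fun x hx => by simpa using (hA hx).1) hne

/-- A face tree excludes dentability of the faces. -/
theorem IsFaceTree.not_facesDentable {δ : ℝ} (h : IsFaceTree X δ) (hδ : 0 < δ) :
    ¬ FacesDentable X := by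
  intro hD
  obtain ⟨χ, a, hχ, ha⟩ := h
  have hA := hD χ hχ (Set.range a) (by
    rintro _ ⟨s, rfl⟩
    exact ⟨(ha s).1, (ha s).2.1⟩) ⟨a [], ⟨[], rfl⟩⟩
  obtain ⟨_, ⟨s, rfl⟩, hna⟩ := hA δ hδ
  apply hna
  obtain ⟨-, -, h3, h4⟩ := ha s
  have hmid : a s = (1 / 2 : ℝ) • a (true :: s) + (1 / 2 : ℝ) • a (false :: s) := by
    rw [← smul_add, h3, smul_smul]
    norm_num
  have h5 : ‖a (false :: s) - a s‖ = δ := by
    have e : a (false :: s) - a s = -(a (true :: s) - a s) := by
      have e2 : a (false :: s) = (2 : ℝ) • a s - a (true :: s) := by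
        rw [← h3]; abel
      rw [e2, two_smul]; abel
    rw [e, norm_neg, h4]
  apply subset_closure
  have hmem : ∀ t : List Bool, ‖a t - a s‖ = δ →
      a t ∈ convexHull ℝ (Set.range a \ ball (a s) δ) := fun t ht =>
    subset_convexHull ℝ _ ⟨⟨t, rfl⟩, by simp [dist_eq_norm, ht]⟩
  have hc := convex_convexHull ℝ (Set.range a \ ball (a s) δ)
    (hmem _ h4) (hmem _ h5) (by norm_num : (0 : ℝ) ≤ 1 / 2) (by norm_num : (0 : ℝ) ≤ 1 / 2)
    (by norm_num)
  rwa [← hmid] at hc

/-- **The union.**  Part one: `f` extends if one of the two spaces is finite dimensional, or strictly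
convex, or reflexive, or has a subspace `N` modulo which functionals of slope one separate points and
such that subsets of faces in one coset of `N` are dentable, or has a nontrivial L-projection or
M-projection, or is `Z ⊕_p W` with `1 < p < ∞`, `Z`, `W` arbitrary nonzero, or is a space of continuous
functions `C₀(L, E)`, or has dense flat points, or has ball faces.  Part two: if `f` does not extend, both unit spheres have a face
containing a dyadic tree, with the same increment `δ > 0`. -/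
theorem main_union (hrank : (3 : Cardinal) ≤ Module.rank ℝ X)
    (f : sphere (0 : X) 1 → sphere (0 : Y) 1) (hf : Isometry f) (hs : Function.Surjective f) :
    ((FiniteDimensional ℝ X ∨ FiniteDimensional ℝ Y ∨ StrictConvexSpace ℝ X ∨
        StrictConvexSpace ℝ Y ∨
        Function.Surjective (NormedSpace.inclusionInDoubleDual ℝ X) ∨
        Function.Surjective (NormedSpace.inclusionInDoubleDual ℝ Y) ∨
        (∃ N : Submodule ℝ X, FaceDist.SlopeSeparatesMod N ∧ FaceDist.FacesDentableMod N) ∨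
        (∃ N : Submodule ℝ Y, FaceDist.SlopeSeparatesMod N ∧ FaceDist.FacesDentableMod N) ∨
        (∃ P : X →L[ℝ] X, (IsLprojection X P ∨ IsMprojection X P) ∧ P ≠ 0 ∧ P ≠ 1) ∨
        (∃ P : Y →L[ℝ] Y, (IsLprojection Y P ∨ IsMprojection Y P) ∧ P ≠ 0 ∧ P ≠ 1) ∨
        (∃ (p : ℝ) (P : X →L[ℝ] X), 1 < p ∧ P ≠ 0 ∧ P ≠ 1 ∧ LpSum.IsLpSummand p P) ∨
        (∃ (p : ℝ) (P : Y →L[ℝ] Y), 1 < p ∧ P ≠ 0 ∧ P ≠ 1 ∧ LpSum.IsLpSummand p P) ∨
        C0.IsVectorC0H X ∨ C0.IsVectorC0H Y ∨ Flat.FlatDense X ∨ Flat.FlatDense Y ∨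
        BallFace.HasBallFaces X ∨ BallFace.HasBallFaces Y) →
      ∃ T : X ≃ₗᵢ[ℝ] Y, ∀ x : sphere (0 : X) 1, T x = f x) ∧
    ((∃ T : X ≃ₗᵢ[ℝ] Y, ∀ x : sphere (0 : X) 1, T x = f x) ∨
      ∃ δ : ℝ, 0 < δ ∧ IsFaceTree X δ ∧ IsFaceTree Y δ) := by
  obtain ⟨h1, -⟩ := main hrank f hf hs
  have h2 : (∃ T : X ≃ₗᵢ[ℝ] Y, ∀ x : sphere (0 : X) 1, T x = f x) ∨
      ∃ δ : ℝ, 0 < δ ∧ IsFaceTree X δ ∧ IsFaceTree Y δ := by
    by_cases hX : FiniteDimensional ℝ X
    · exact Or.inl (h1 (Or.inl hX))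
    obtain ⟨g, hg, hgf⟩ := exists_ambient f hf hs
    have hodd : ∀ a : X, ‖a‖ = 1 → g (-a) = -g a := fun a ha => odd_of_isSphereIso hg ha
    by_cases hadd : ∀ x z : X, ‖x‖ = 1 → ‖z‖ = 1 → ‖x + z‖ = 1 → g (x + z) = g x + g z
    · obtain ⟨T, hT⟩ := exists_linear_of_additive (four_le_rank_of_infinite hX) hg hodd hadd
      refine Or.inl ⟨T, fun x => ?_⟩
      rw [hT x (by simpa using x.2), hgf]
    · push Not at hadd
      obtain ⟨a, b, ha, hb, hab, hne⟩ := hadd
      obtain ⟨g', hg', hg'g, hgg'⟩ := exists_isSphereIso_inv hg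
      have hodd' : ∀ a : Y, ‖a‖ = 1 → g' (-a) = -g' a := fun a ha => odd_of_isSphereIso hg' ha
      exact Or.inr (faceTree_of_not_additive hg hodd hg' hodd' hg'g hgg' ha hb hab hne)
  refine ⟨?_, h2⟩
  rintro (h | h | h | h | h | h | ⟨N, hN, hD⟩ | ⟨N, hN, hD⟩ | ⟨P, hP | hP, h0, h1'⟩ |
    ⟨P, hP | hP, h0, h1'⟩ | ⟨p, P, hp, hP0, hP1, hL⟩ | ⟨p, P, hp, hP0, hP1, hL⟩ | hS | hS |
    hF | hF | hB | hB)
  · exact h1 (Or.inl h)
  · exact h1 (Or.inr (Or.inl h))
  · exact h1 (Or.inr (Or.inr (Or.inl h)))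
  · exact h1 (Or.inr (Or.inr (Or.inr (Or.inl h))))
  · exact h1 (Or.inr (Or.inr (Or.inr (Or.inr (Or.inl h)))))
  · exact h1 (Or.inr (Or.inr (Or.inr (Or.inr (Or.inr (Or.inl h))))))
  · exact FaceDist.extends_of_mod_source hrank hN hD f hf hs
  · exact FaceDist.extends_of_mod_target hrank hN hD f hf hs
  · exact LSum.extends_of_source f hf hs hP h0 h1'
  · exact extends_of_Mprojection_source f hf hs hP h0 h1'
  · exact LSum.extends_of_target f hf hs hP h0 h1'
  · exact extends_of_Mprojection_target f hf hs hP h0 h1'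
  · by_cases hX : FiniteDimensional ℝ X
    · exact h1 (Or.inl hX)
    · exact LpGen.extends_sum_source f hf hs hL hp hP0 hP1 hX
  · by_cases hY : FiniteDimensional ℝ Y
    · exact h1 (Or.inr (Or.inl hY))
    · exact LpGen.extends_sum_target f hf hs hL hp hP0 hP1 hY
  · exact SepRed.extends_sphere_source_C0H f hf hs hS
  · exact SepRed.extends_sphere_target_C0H f hf hs hS
  · exact Flat.sphere_extends f hf hs (Or.inl hF)
  · exact Flat.sphere_extends f hf hs (Or.inr hF)
  · exact BallFace.extends_of_hasBallFaces_source hB f hf hs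
  · exact BallFace.extends_of_hasBallFaces_target hB f hf hs

end Vale.Agent.Lib.P084.RNP
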